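import Mathlib

/-! Spectral toolkit for Hermitian complex matrices: sorted eigenvalues, counting function,
inertia lemma, Weyl monotonicity, log-determinant. -/

set_option linter.unusedSectionVars false

namespace Crest.Agent.QEnt

open Matrix
open scoped ComplexOrder

variable {n k : Type*} [Fintype n] [DecidableEq n] [Fintype k] [DecidableEq k]

/-- eigenvalues (zero for non-Hermitian matrices) -/
noncomputable def ev (A : Matrix n n ℂ) : n → ℝ :=
  if h : A.IsHermitian then h.eigenvalues else 0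

/-- eigenvector unitary -/
noncomputable def eU (A : Matrix n n ℂ) : Matrix n n ℂ :=
  if h : A.IsHermitian then (h.eigenvectorUnitary : Matrix n n ℂ) else 1

/-- real diagonal matrix -/
def dR (d : n → ℝ) : Matrix n n ℂ := diagonal (fun i => (d i : ℂ))

lemma ev_eq {A : Matrix n n ℂ} (h : A.IsHermitian) : ev A = h.eigenvalues := by
  simp [ev, h]

lemma eU_star_mul (A : Matrix n n ℂ) : (eU A)ᴴ * eU A = 1 := by
  unfold eU
  split_ifs with h
  · exact Unitary.coe_star_mul_self h.eigenvectorUnitary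
  · simp

lemma eU_mul_star (A : Matrix n n ℂ) : eU A * (eU A)ᴴ = 1 :=
  mul_eq_one_comm.mp (eU_star_mul A)

lemma spec {A : Matrix n n ℂ} (h : A.IsHermitian) : A = eU A * dR (ev A) * (eU A)ᴴ := by
  have := h.spectral_theorem
  rw [Unitary.conjStarAlgAut_apply] at this
  simp only [eU, ev, h, dif_pos, dR]
  exact this

lemma dR_herm (d : n → ℝ) : (dR d).IsHermitian := by
  unfold dR
  rw [isHermitian_diagonal_iff]
  intro i
  simp [IsSelfAdjoint]

lemma conj_herm (U : Matrix k n ℂ) (d : n → ℝ) : (U * dR d * Uᴴ).IsHermitian :=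
  isHermitian_mul_mul_conjTranspose U (dR_herm d)

lemma dR_psd {d : n → ℝ} (h : ∀ i, 0 ≤ d i) : (dR d).PosSemidef := by
  unfold dR
  rw [posSemidef_diagonal_iff]
  intro i
  exact_mod_cast h i

lemma conj_psd (U : Matrix k n ℂ) {d : n → ℝ} (h : ∀ i, 0 ≤ d i) : (U * dR d * Uᴴ).PosSemidef :=
  (dR_psd h).mul_mul_conjTranspose_same U

lemma dR_add (d e : n → ℝ) : dR d + dR e = dR (fun i => d i + e i) := by
  simp [dR, diagonal_add]

lemma dR_sub (d e : n → ℝ) : dR d - dR e = dR (fun i => d i - e i) := by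
  simp [dR, diagonal_sub]

lemma dR_const (c : ℝ) : dR (fun _ : n => c) = (c : ℂ) • (1 : Matrix n n ℂ) := by
  ext i j
  by_cases h : i = j <;> simp [dR, diagonal, h, one_apply]

lemma dR_smul (c : ℝ) (d : n → ℝ) : (c : ℂ) • dR d = dR (fun i => c * d i) := by
  ext i j
  by_cases h : i = j <;> simp [dR, diagonal, h]

lemma multiset_ev_of_conj {U : Matrix n n ℂ} (hU : Uᴴ * U = 1) (d : n → ℝ) :
    Multiset.map (ev (U * dR d * Uᴴ)) Finset.univ.val = Multiset.map d Finset.univ.val := by
  have h := conj_herm U d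
  have h1 := h.roots_charpoly_eq_eigenvalues
  have h2 : (U * dR d * Uᴴ).charpoly = ∏ i, (Polynomial.X - Polynomial.C (d i : ℂ)) := by
    rw [charpoly_mul_comm, ← mul_assoc, hU, one_mul, dR, charpoly_diagonal]
  have h3 : (U * dR d * Uᴴ).charpoly.roots
      = Multiset.map (fun i => (d i : ℂ)) Finset.univ.val := by
    rw [h2, Polynomial.roots_prod]
    · simp
    · simp [Finset.prod_ne_zero_iff, Polynomial.X_sub_C_ne_zero]
  rw [h3] at h1
  have h4 := congrArg (Multiset.map Complex.re) h1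
  rw [Multiset.map_map, Multiset.map_map] at h4
  rw [ev_eq h]
  simpa [Function.comp_def] using h4.symm

lemma sum_ev_of_conj {U : Matrix n n ℂ} (hU : Uᴴ * U = 1) (d : n → ℝ) {M : Type*}
    [AddCommMonoid M] (g : ℝ → M) :
    ∑ i, g (ev (U * dR d * Uᴴ) i) = ∑ i, g (d i) := by
  have h := congrArg (fun s => (Multiset.map g s).sum) (multiset_ev_of_conj hU d)
  simp only [Multiset.map_map] at h
  exact h

lemma sum_ev_dR (d : n → ℝ) {M : Type*} [AddCommMonoid M] (g : ℝ → M) :
    ∑ i, g (ev (dR d) i) = ∑ i, g (d i) := by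
  have := sum_ev_of_conj (U := (1 : Matrix n n ℂ)) (by simp) d g
  simpa using this

lemma ev_nonneg {A : Matrix n n ℂ} (h : A.PosSemidef) (i : n) : 0 ≤ ev A i := by
  rw [ev_eq h.1]; exact h.eigenvalues_nonneg i

lemma ev_pos {A : Matrix n n ℂ} (h : A.PosDef) (i : n) : 0 < ev A i := by
  rw [ev_eq h.1]; exact h.eigenvalues_pos i

lemma sum_ev {A : Matrix n n ℂ} (h : A.IsHermitian) : ∑ i, ev A i = A.trace.re := by
  rw [ev_eq h, h.trace_eq_sum_eigenvalues]
  simp

/-- affine images -/
lemma affine_eq {A : Matrix n n ℂ} (h : A.IsHermitian) (a b : ℝ) :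
    (a : ℂ) • A + (b : ℂ) • (1 : Matrix n n ℂ)
      = eU A * dR (fun i => a * ev A i + b) * (eU A)ᴴ := by
  rw [← dR_add, ← dR_smul, dR_const, Matrix.mul_add, Matrix.add_mul, Matrix.mul_smul,
    Matrix.smul_mul, ← spec h, Matrix.mul_smul, Matrix.smul_mul, Matrix.mul_one, eU_mul_star]

lemma sum_ev_affine {A : Matrix n n ℂ} (h : A.IsHermitian) (a b : ℝ) {M : Type*}
    [AddCommMonoid M] (g : ℝ → M) :
    ∑ i, g (ev ((a : ℂ) • A + (b : ℂ) • (1 : Matrix n n ℂ)) i) = ∑ i, g (a * ev A i + b) := by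
  rw [affine_eq h, sum_ev_of_conj (eU_star_mul A)]

/-- number of eigenvalues above `t` -/
noncomputable def cnt (A : Matrix n n ℂ) (t : ℝ) : ℕ :=
  (Finset.univ.filter (fun i => t < ev A i)).card

lemma inertia {A : Matrix n n ℂ} (h : A.IsHermitian) (t : ℝ) (W : Matrix n k ℂ)
    (hW : (Wᴴ * (A - (t : ℂ) • (1 : Matrix n n ℂ)) * W).PosDef) : Fintype.card k ≤ cnt A t := by
  classical
  let J := {i // t < ev A i}
  have hJ : Fintype.card J = cnt A t := by
    simp [J, cnt, Fintype.card_subtype]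
  let f : (k → ℂ) →ₗ[ℂ] (J → ℂ) :=
    (LinearMap.funLeft ℂ ℂ (Subtype.val : J → n)).comp (Matrix.mulVecLin ((eU A)ᴴ * W))
  have hf : Function.Injective f := by
    rw [← LinearMap.ker_eq_bot, LinearMap.ker_eq_bot']
    intro y hy
    by_contra hne
    have hpos := hW.dotProduct_mulVec_pos hne
    set z := ((eU A)ᴴ * W) *ᵥ y with hz
    have hz0 : ∀ i, t < ev A i → z i = 0 := fun i hi => congrFun hy ⟨i, hi⟩
    have e1 : A - (t : ℂ) • (1 : Matrix n n ℂ)
        = eU A * dR (fun i => ev A i - t) * (eU A)ᴴ := by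
      have := affine_eq h 1 (-t)
      simp only [Complex.ofReal_one, one_smul, one_mul, Complex.ofReal_neg, neg_smul] at this
      rw [sub_eq_add_neg, this]
      rfl
    have e2 : star y ⬝ᵥ ((Wᴴ * (A - (t : ℂ) • (1 : Matrix n n ℂ)) * W) *ᵥ y)
        = star z ⬝ᵥ (dR (fun i => ev A i - t) *ᵥ z) := by
      rw [e1, hz, star_mulVec, ← dotProduct_mulVec, mulVec_mulVec, mulVec_mulVec]
      simp [Matrix.mul_assoc]
    rw [e2] at hpos
    have e3 : star z ⬝ᵥ (dR (fun i => ev A i - t) *ᵥ z)
        = ((∑ i, (ev A i - t) * Complex.normSq (z i) : ℝ) : ℂ) := by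
      simp only [dotProduct, dR, mulVec_diagonal, Pi.star_apply]
      push_cast
      refine Finset.sum_congr rfl fun i _ => ?_
      rw [Complex.normSq_eq_conj_mul_self]
      simp only [RCLike.star_def]
      ring
    rw [e3] at hpos
    have hpos' : 0 < ∑ i, (ev A i - t) * Complex.normSq (z i) := by exact_mod_cast hpos
    have : ∑ i, (ev A i - t) * Complex.normSq (z i) ≤ 0 := by
      refine Finset.sum_nonpos fun i _ => ?_
      by_cases hi : t < ev A i
      · simp [hz0 i hi]
      · exact mul_nonpos_of_nonpos_of_nonneg (by linarith [not_lt.mp hi]) (Complex.normSq_nonneg _)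
    linarith
  have := LinearMap.finrank_le_finrank_of_injective hf
  simpa [hJ] using this

lemma exists_inertia {A : Matrix n n ℂ} (h : A.IsHermitian) (t : ℝ) :
    ∃ W : Matrix n {i // t < ev A i} ℂ,
      (Wᴴ * (A - (t : ℂ) • (1 : Matrix n n ℂ)) * W).PosDef := by
  classical
  refine ⟨(eU A).submatrix id Subtype.val, ?_⟩
  have e1 : A - (t : ℂ) • (1 : Matrix n n ℂ)
      = eU A * dR (fun i => ev A i - t) * (eU A)ᴴ := by
    have := affine_eq h 1 (-t)
    simp only [Complex.ofReal_one, one_smul, one_mul, Complex.ofReal_neg, neg_smul] at this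
    rw [sub_eq_add_neg, this]
    rfl
  have e2 : (eU A)ᴴ * (A - (t : ℂ) • (1 : Matrix n n ℂ)) * eU A = dR (fun i => ev A i - t) := by
    rw [e1]
    simp only [Matrix.mul_assoc, eU_star_mul, Matrix.mul_one]
    rw [← Matrix.mul_assoc, eU_star_mul, Matrix.one_mul]
  have e3 : ((eU A).submatrix id (Subtype.val : {i // t < ev A i} → n))ᴴ
      * (A - (t : ℂ) • (1 : Matrix n n ℂ))
        * (eU A).submatrix id (Subtype.val : {i // t < ev A i} → n)
      = ((eU A)ᴴ * (A - (t : ℂ) • (1 : Matrix n n ℂ)) * eU A).submatrix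
          (Subtype.val : {i // t < ev A i} → n) (Subtype.val : {i // t < ev A i} → n) := by
    ext i j
    simp [Matrix.mul_apply]
  rw [e3, e2, dR, submatrix_diagonal _ _ Subtype.val_injective]
  rw [posDef_diagonal_iff]
  intro i
  have := i.2
  simp only [Function.comp_apply]
  exact_mod_cast sub_pos.mpr this

lemma card_sub_eq (A : Matrix n n ℂ) (t : ℝ) : Fintype.card {i // t < ev A i} = cnt A t := by
  simp [cnt, Fintype.card_subtype]

lemma cnt_mono {A B : Matrix n n ℂ} (hA : A.IsHermitian) (hB : B.IsHermitian)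
    (hAB : (B - A).PosSemidef) (t : ℝ) : cnt A t ≤ cnt B t := by
  obtain ⟨W, hW⟩ := exists_inertia hA t
  rw [← card_sub_eq]
  refine inertia hB t W ?_
  have : Wᴴ * (B - (t : ℂ) • (1 : Matrix n n ℂ)) * W
      = Wᴴ * (A - (t : ℂ) • (1 : Matrix n n ℂ)) * W + Wᴴ * (B - A) * W := by
    rw [← Matrix.add_mul, ← Matrix.mul_add]; congr 2; abel
  rw [this]
  exact hW.add_posSemidef (hAB.conjTranspose_mul_mul_same W)

/-- position of an index in the sorted order -/
noncomputable def pos (n : Type*) [Fintype n] : n ≃ Fin (Fintype.card n) :=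
  (Fintype.equivOfCardEq (Fintype.card_fin _)).symm

lemma ev_anti (A : Matrix n n ℂ) {i j : n} (hij : pos n i ≤ pos n j) : ev A j ≤ ev A i := by
  unfold ev
  split_ifs with h
  · exact h.eigenvalues₀_antitone hij
  · simp

lemma card_pos_le (i : n) :
    (Finset.univ.filter (fun j => pos n j ≤ pos n i)).card = (pos n i : ℕ) + 1 := by
  have : (Finset.univ.filter (fun j => pos n j ≤ pos n i)).card
      = (Finset.Iic (pos n i)).card := by
    refine Finset.card_bij (fun j _ => pos n j) ?_ ?_ ?_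
    · intro j hj; simpa using hj
    · intro a _ b _ hab; exact (pos n).injective hab
    · intro b hb; exact ⟨(pos n).symm b, by simpa using hb, by simp⟩
  rw [this, Fin.card_Iic]

lemma card_pos_lt (i : n) :
    (Finset.univ.filter (fun j => pos n j < pos n i)).card = (pos n i : ℕ) := by
  have : (Finset.univ.filter (fun j => pos n j < pos n i)).card
      = (Finset.Iio (pos n i)).card := by
    refine Finset.card_bij (fun j _ => pos n j) ?_ ?_ ?_
    · intro j hj; simpa using hj
    · intro a _ b _ hab; exact (pos n).injective hab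
    · intro b hb; exact ⟨(pos n).symm b, by simpa using hb, by simp⟩
  rw [this, Fin.card_Iio]

lemma lt_ev_iff (A : Matrix n n ℂ) (t : ℝ) (i : n) : t < ev A i ↔ (pos n i : ℕ) < cnt A t := by
  constructor
  · intro h
    have : (Finset.univ.filter (fun j => pos n j ≤ pos n i))
        ⊆ Finset.univ.filter (fun j => t < ev A j) := by
      intro j hj
      simp only [Finset.mem_filter, Finset.mem_univ, true_and] at hj ⊢
      exact lt_of_lt_of_le h (ev_anti A hj)
    have h2 := Finset.card_le_card this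
    rw [card_pos_le] at h2
    exact h2
  · intro h
    by_contra hn
    have : Finset.univ.filter (fun j => t < ev A j)
        ⊆ (Finset.univ.filter (fun j => pos n j < pos n i)) := by
      intro j hj
      simp only [Finset.mem_filter, Finset.mem_univ, true_and] at hj ⊢
      by_contra h3
      exact hn (lt_of_lt_of_le hj (ev_anti A (not_lt.mp h3)))
    have h2 := Finset.card_le_card this
    rw [card_pos_lt] at h2
    unfold cnt at h
    omega

/-- Weyl monotonicity -/
lemma ev_mono {A B : Matrix n n ℂ} (hA : A.IsHermitian) (hB : B.IsHermitian)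
    (hAB : (B - A).PosSemidef) (i : n) : ev A i ≤ ev B i := by
  by_contra h
  have h1 := (lt_ev_iff A _ i).mp (not_le.mp h)
  have h2 := (lt_ev_iff B _ i).mpr (lt_of_lt_of_le h1 (cnt_mono hA hB hAB _))
  exact lt_irrefl _ h2

lemma ev_le_of {A : Matrix n n ℂ} (hA : A.IsHermitian) {c : ℝ}
    (h : ((c : ℂ) • (1 : Matrix n n ℂ) - A).PosSemidef) (i : n) : ev A i ≤ c := by
  have e : (c : ℂ) • (1 : Matrix n n ℂ) - A = eU A * dR (fun i => c - ev A i) * (eU A)ᴴ := by
    have := affine_eq hA (-1) c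
    simp only [Complex.ofReal_neg, Complex.ofReal_one, neg_smul, one_smul, neg_mul, one_mul] at this
    rw [sub_eq_neg_add, this]
    congr 3; ext i; ring
  have h2 := h.conjTranspose_mul_mul_same (eU A)
  rw [e] at h2
  simp only [Matrix.mul_assoc, eU_star_mul, Matrix.mul_one] at h2
  rw [← Matrix.mul_assoc, eU_star_mul, Matrix.one_mul, dR, posSemidef_diagonal_iff] at h2
  have h3 := h2 i
  have : (0 : ℝ) ≤ c - ev A i := by exact_mod_cast h3
  linarith

/-- log-determinant -/
noncomputable def LD (A : Matrix n n ℂ) : ℝ := Real.log ‖A.det‖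

lemma LD_mul {A B : Matrix n n ℂ} (hA : A.det ≠ 0) (hB : B.det ≠ 0) :
    LD (A * B) = LD A + LD B := by
  unfold LD
  rw [det_mul, norm_mul, Real.log_mul (norm_ne_zero_iff.mpr hA) (norm_ne_zero_iff.mpr hB)]

lemma LD_eq {A : Matrix n n ℂ} (h : A.PosDef) : LD A = ∑ i, Real.log (ev A i) := by
  unfold LD
  rw [h.1.det_eq_prod_eigenvalues, norm_prod, Real.log_prod]
  · rw [ev_eq h.1]
    refine Finset.sum_congr rfl fun i _ => ?_
    simp [Real.log_abs]
  · intro i _
    have := h.eigenvalues_pos i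
    simp [this.ne']

lemma LD_mono {A B : Matrix n n ℂ} (hA : A.PosDef) (hAB : (B - A).PosSemidef) : LD A ≤ LD B := by
  have hB : B.PosDef := by
    have := hA.add_posSemidef hAB
    simpa using this
  rw [LD_eq hA, LD_eq hB]
  exact Finset.sum_le_sum fun i _ => Real.log_le_log (ev_pos hA i) (ev_mono hA.1 hB.1 hAB i)

lemma smul_one_posDef {t : ℝ} (ht : 0 < t) : ((t : ℂ) • (1 : Matrix n n ℂ)).PosDef :=
  PosDef.one.smul (by exact_mod_cast ht)

lemma shift_posDef {A : Matrix n n ℂ} (h : A.PosSemidef) {t : ℝ} (ht : 0 < t) :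
    (A + (t : ℂ) • (1 : Matrix n n ℂ)).PosDef :=
  (smul_one_posDef ht).posSemidef_add h

lemma LD_affine {A : Matrix n n ℂ} (h : A.PosSemidef) {a b : ℝ} (ha : 0 ≤ a) (hb : 0 < b) :
    LD ((a : ℂ) • A + (b : ℂ) • (1 : Matrix n n ℂ)) = ∑ i, Real.log (a * ev A i + b) := by
  rw [LD_eq (shift_posDef (h.smul (by exact_mod_cast ha)) hb), sum_ev_affine h.1]

lemma LD_shift {A : Matrix n n ℂ} (h : A.PosSemidef) {b : ℝ} (hb : 0 < b) :
    LD (A + (b : ℂ) • (1 : Matrix n n ℂ)) = ∑ i, Real.log (ev A i + b) := by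
  have := LD_affine h zero_le_one hb
  simpa using this

end Crest.Agent.QEnt
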