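import Mathlib
import Crest.Agent.QEnt.Spec

/-! Fiedler's determinant lower bound `det (1 + P + Q) ≥ ∏ (1 + pᵢ↓ + qᵢ↓)`. -/

set_option linter.unusedSectionVars false

namespace Crest.Agent.QEnt

open Matrix
open scoped ComplexOrder

variable {n k : Type*} [Fintype n] [DecidableEq n] [Fintype k] [DecidableEq k]

lemma psd_of_eq {A B : Matrix n n ℂ} (h : A.PosSemidef) (e : B = A) : B.PosSemidef := e ▸ h

lemma inv_ge_of_le {M : Matrix n n ℂ} (hM : M.PosDef) {c : ℝ} (hc : 0 < c)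
    (h : ((c : ℂ) • (1 : Matrix n n ℂ) - M).PosSemidef) :
    (M⁻¹ - ((c⁻¹ : ℝ) : ℂ) • (1 : Matrix n n ℂ)).PosSemidef := by
  have hu : IsUnit M.det := (isUnit_iff_isUnit_det M).mp hM.isUnit
  have h1 := hM.inv.posSemidef.conjTranspose_mul_mul_same
    ((1 : Matrix n n ℂ) - ((c⁻¹ : ℝ) : ℂ) • M)
  have h2 := h.smul (a := (((c⁻¹ * c⁻¹ : ℝ)) : ℂ)) (by exact_mod_cast (by positivity))
  have h3 := h1.add h2
  have hc' : (c : ℂ) ≠ 0 := by exact_mod_cast hc.ne'
  refine psd_of_eq h3 ?_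
  rw [conjTranspose_sub, conjTranspose_one, conjTranspose_smul, hM.1.eq]
  simp only [Matrix.sub_mul, Matrix.mul_sub, Matrix.one_mul, Matrix.mul_one, Matrix.smul_mul,
    Matrix.mul_smul, mul_nonsing_inv _ hu, nonsing_inv_mul _ hu, smul_sub, smul_smul]
  simp only [Complex.ofReal_inv, Complex.ofReal_mul, star_inv₀, Complex.star_def,
    Complex.conj_ofReal]
  rw [inv_mul_cancel_right₀ hc']
  abel

/-- a square root factor -/
noncomputable def rt (A : Matrix n n ℂ) : Matrix n n ℂ := eU A * dR (fun i => Real.sqrt (ev A i))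

lemma dR_mul (d e : n → ℝ) : dR d * dR e = dR (fun i => d i * e i) := by
  simp [dR, diagonal_mul_diagonal]

lemma rt_mul_star {A : Matrix n n ℂ} (h : A.PosSemidef) : rt A * (rt A)ᴴ = A := by
  unfold rt
  rw [conjTranspose_mul, (dR_herm _).eq, Matrix.mul_assoc, ← Matrix.mul_assoc (dR _), dR_mul,
    ← Matrix.mul_assoc]
  conv_rhs => rw [spec h.1]
  congr 3
  ext i
  exact Real.mul_self_sqrt (ev_nonneg h i)

lemma rt_star_mul {A : Matrix n n ℂ} (h : A.PosSemidef) : (rt A)ᴴ * rt A = dR (ev A) := by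
  unfold rt
  rw [conjTranspose_mul, (dR_herm _).eq, Matrix.mul_assoc, ← Matrix.mul_assoc (eU A)ᴴ,
    eU_star_mul, Matrix.one_mul, dR_mul]
  congr 1
  ext i
  exact Real.mul_self_sqrt (ev_nonneg h i)

lemma LD_add_gram {M : Matrix n n ℂ} (hM : M.PosDef) (K : Matrix n k ℂ) :
    LD (M + K * Kᴴ) = LD M + LD (1 + Kᴴ * M⁻¹ * K) := by
  have hu : IsUnit M.det := (isUnit_iff_isUnit_det M).mp hM.isUnit
  have e : M + K * Kᴴ = M * (1 + (M⁻¹ * K) * Kᴴ) := by
    rw [Matrix.mul_add, Matrix.mul_one, ← Matrix.mul_assoc, ← Matrix.mul_assoc,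
      mul_nonsing_inv _ hu, Matrix.one_mul]
  have hp : (1 + Kᴴ * M⁻¹ * K).PosDef :=
    PosDef.one.add_posSemidef (hM.inv.posSemidef.conjTranspose_mul_mul_same K)
  have e2 : (1 + (M⁻¹ * K) * Kᴴ).det = (1 + Kᴴ * M⁻¹ * K).det := by
    rw [det_one_add_mul_comm, Matrix.mul_assoc]
  rw [e, LD_mul hu.ne_zero (by rw [e2]; exact hp.det_pos.ne')]
  unfold LD
  rw [e2]

lemma dR_posDef {d : n → ℝ} (h : ∀ i, 0 < d i) : (dR d).PosDef := by
  unfold dR
  rw [posDef_diagonal_iff]
  intro i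
  exact_mod_cast h i

lemma LD_dR {d : n → ℝ} (h : ∀ i, 0 < d i) : LD (dR d) = ∑ i, Real.log (d i) := by
  rw [LD_eq (dR_posDef h), sum_ev_dR]

lemma log_chord {c ω δ : ℝ} (hc : 0 < c) (hω : 0 < ω) (h0 : 0 ≤ δ) (h1 : δ ≤ ω) :
    δ / ω * (Real.log (c + ω) - Real.log c) ≤ Real.log (1 + c⁻¹ * δ) := by
  have hcon := strictConcaveOn_log_Ioi.concaveOn.2 (show (1 : ℝ) ∈ Set.Ioi 0 by simp)
    (show 1 + c⁻¹ * ω ∈ Set.Ioi (0 : ℝ) by simp only [Set.mem_Ioi]; positivity)
    (show 0 ≤ 1 - δ / ω by rw [sub_nonneg, div_le_one hω]; exact h1)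
    (show 0 ≤ δ / ω by positivity) (by ring)
  simp only [smul_eq_mul, Real.log_one, mul_zero, zero_add, mul_one] at hcon
  have e1 : 1 - δ / ω + δ / ω * (1 + c⁻¹ * ω) = 1 + c⁻¹ * δ := by field_simp; ring
  have e2 : Real.log (1 + c⁻¹ * ω) = Real.log (c + ω) - Real.log c := by
    rw [← Real.log_div (by positivity) hc.ne']; congr 1; field_simp
  rw [e1, e2] at hcon
  exact hcon

lemma LD_step {M Δ : Matrix n n ℂ} (hM : M.PosDef) (hΔ : Δ.PosSemidef) {c ω r : ℝ} (hc : 0 < c)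
    (hω : 0 ≤ ω) (h1 : ((c : ℂ) • (1 : Matrix n n ℂ) - M).PosSemidef)
    (h2 : ((ω : ℂ) • (1 : Matrix n n ℂ) - Δ).PosSemidef) (h3 : r * ω ≤ Δ.trace.re) :
    LD M + r * (Real.log (c + ω) - Real.log c) ≤ LD (M + Δ) := by
  rcases hω.eq_or_lt with h0 | h0
  · subst h0
    simp only [add_zero, sub_self, mul_zero]
    exact LD_mono hM (by simpa using hΔ)
  conv_rhs => rw [← rt_mul_star hΔ, LD_add_gram hM]
  have hd : ∀ i, 0 < 1 + c⁻¹ * ev Δ i := fun i => by
    have := ev_nonneg hΔ i; positivity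
  have hle : LD (dR (fun i => 1 + c⁻¹ * ev Δ i)) ≤ LD (1 + (rt Δ)ᴴ * M⁻¹ * rt Δ) := by
    refine LD_mono (dR_posDef hd) ?_
    have h4 := (inv_ge_of_le hM hc h1).conjTranspose_mul_mul_same (rt Δ)
    refine psd_of_eq h4 ?_
    rw [← dR_add, ← dR_smul, dR_const, ← rt_star_mul hΔ]
    simp only [Matrix.mul_sub, Matrix.sub_mul, Matrix.mul_smul, Matrix.smul_mul, Matrix.mul_one,
      Complex.ofReal_one, one_smul]
    abel
  rw [LD_dR hd] at hle
  have hL : 0 ≤ Real.log (c + ω) - Real.log c :=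
    sub_nonneg.mpr (Real.log_le_log hc (by linarith))
  have h5 : ∑ i, ev Δ i / ω * (Real.log (c + ω) - Real.log c)
      ≤ ∑ i, Real.log (1 + c⁻¹ * ev Δ i) :=
    Finset.sum_le_sum fun i _ => log_chord hc h0 (ev_nonneg hΔ i) (ev_le_of hΔ.1 h2 i)
  rw [← Finset.sum_mul, ← Finset.sum_div, sum_ev hΔ.1] at h5
  have h6 : r ≤ Δ.trace.re / ω := by rw [le_div_iff₀ h0]; exact h3
  nlinarith [mul_le_mul_of_nonneg_right h6 hL]

/-- sorted eigenvalue sequence, extended by zero -/
noncomputable def sq (A : Matrix n n ℂ) (m : ℕ) : ℝ :=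
  if h : m < Fintype.card n then ev A ((pos n).symm ⟨m, h⟩) else 0

lemma sq_pos (A : Matrix n n ℂ) (i : n) : sq A (pos n i) = ev A i := by
  simp [sq]

lemma sq_nonneg {A : Matrix n n ℂ} (h : A.PosSemidef) (m : ℕ) : 0 ≤ sq A m := by
  unfold sq; split_ifs
  · exact ev_nonneg h _
  · exact le_rfl

lemma sq_le_ev {A : Matrix n n ℂ} (h : A.PosSemidef) {m : ℕ} {i : n} (hi : (pos n i : ℕ) ≤ m) :
    sq A m ≤ ev A i := by
  unfold sq; split_ifs with hm
  · exact ev_anti A (by rw [Equiv.apply_symm_apply, Fin.le_def]; exact hi)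
  · exact ev_nonneg h _

lemma sq_succ_le {A : Matrix n n ℂ} (h : A.PosSemidef) {m : ℕ} (hm : m < Fintype.card n) :
    sq A (m + 1) ≤ sq A m := by
  have : sq A m = ev A ((pos n).symm ⟨m, hm⟩) := by simp [sq, hm]
  rw [this]
  exact sq_le_ev h (by simp)

/-- truncation `min (A, α)` -/
noncomputable def trunc (A : Matrix n n ℂ) (α : ℝ) : Matrix n n ℂ :=
  eU A * dR (fun i => min (ev A i) α) * (eU A)ᴴ

lemma trunc_psd {A : Matrix n n ℂ} (h : A.PosSemidef) {α : ℝ} (hα : 0 ≤ α) :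
    (trunc A α).PosSemidef :=
  conj_psd _ fun i => le_min (ev_nonneg h i) hα

lemma conj_sub (U : Matrix n n ℂ) (d e : n → ℝ) :
    U * dR d * Uᴴ - U * dR e * Uᴴ = U * dR (fun i => d i - e i) * Uᴴ := by
  rw [← dR_sub, Matrix.mul_sub, Matrix.sub_mul]

lemma smul_one_eq_conj (A : Matrix n n ℂ) (c : ℝ) :
    (c : ℂ) • (1 : Matrix n n ℂ) = eU A * dR (fun _ => c) * (eU A)ᴴ := by
  rw [dR_const, Matrix.mul_smul, Matrix.smul_mul, Matrix.mul_one, eU_mul_star]

lemma trunc_le (A : Matrix n n ℂ) (α : ℝ) :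
    ((α : ℂ) • (1 : Matrix n n ℂ) - trunc A α).PosSemidef := by
  rw [smul_one_eq_conj A, trunc, conj_sub]
  exact conj_psd _ fun i => sub_nonneg.mpr (min_le_right _ _)

lemma trunc_sub_psd (A : Matrix n n ℂ) {α β : ℝ} (h : α ≤ β) :
    (trunc A β - trunc A α).PosSemidef := by
  rw [trunc, trunc, conj_sub]
  exact conj_psd _ fun i => sub_nonneg.mpr (min_le_min_left _ h)

lemma trunc_sub_le (A : Matrix n n ℂ) {α β : ℝ} (h : α ≤ β) :
    (((β - α : ℝ) : ℂ) • (1 : Matrix n n ℂ) - (trunc A β - trunc A α)).PosSemidef := by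
  rw [smul_one_eq_conj A, trunc, trunc, conj_sub, conj_sub]
  refine conj_psd _ fun i => ?_
  rcases le_total (ev A i) α with h1 | h1
  · rw [min_eq_left h1, min_eq_left (h1.trans h)]; linarith
  · rw [min_eq_right h1]; linarith [min_le_right (ev A i) β]

lemma trace_conj {U : Matrix n n ℂ} (hU : Uᴴ * U = 1) (d : n → ℝ) :
    (U * dR d * Uᴴ).trace.re = ∑ i, d i := by
  rw [trace_mul_comm, ← Matrix.mul_assoc, hU, Matrix.one_mul, dR, trace_diagonal]
  simp

lemma trace_trunc_sub {A : Matrix n n ℂ} (h : A.PosSemidef) {m : ℕ} (hm : m < Fintype.card n) :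
    ((m : ℝ) + 1) * (sq A m - sq A (m + 1))
      ≤ (trunc A (sq A m) - trunc A (sq A (m + 1))).trace.re := by
  rw [trunc, trunc, conj_sub, trace_conj (eU_star_mul A)]
  have hs := sq_succ_le h hm
  set i0 := (pos n).symm ⟨m, hm⟩ with hi0
  have hp : (pos n i0 : ℕ) = m := by simp [hi0]
  have hc := card_pos_le i0
  rw [hp] at hc
  calc ((m : ℝ) + 1) * (sq A m - sq A (m + 1))
      = ∑ _j ∈ Finset.univ.filter (fun j => pos n j ≤ pos n i0), (sq A m - sq A (m + 1)) := by
        rw [Finset.sum_const, hc]; simp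
    _ = ∑ j ∈ Finset.univ.filter (fun j => pos n j ≤ pos n i0),
          (min (ev A j) (sq A m) - min (ev A j) (sq A (m + 1))) := by
        refine Finset.sum_congr rfl fun j hj => ?_
        simp only [Finset.mem_filter, Finset.mem_univ, true_and] at hj
        have h1 : sq A m ≤ ev A j := sq_le_ev h (by rw [← hp]; exact hj)
        rw [min_eq_right h1, min_eq_right (hs.trans h1)]
    _ ≤ _ := Finset.sum_le_sum_of_subset_of_nonneg (Finset.filter_subset _ _)
        fun j _ _ => sub_nonneg.mpr (min_le_min_left _ hs)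

theorem fiedler {P Q : Matrix n n ℂ} (hP : P.PosSemidef) (hQ : Q.PosSemidef) :
    ∑ i, Real.log (1 + ev P i + ev Q i) ≤ LD (1 + P + Q) := by
  set N := Fintype.card n with hN
  let ℓ : ℕ → ℝ := fun m => Real.log (1 + sq P m + sq Q m)
  let M : ℕ → Matrix n n ℂ := fun m => 1 + trunc P (sq P m) + trunc Q (sq Q m)
  have key : ∀ j, j ≤ N → ((N - j : ℕ) : ℝ) * ℓ (N - j) + ∑ m ∈ Finset.Ico (N - j) N, ℓ m
      ≤ LD (M (N - j)) := by
    intro j
    induction j with
    | zero =>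
      intro _
      have h1 : sq P N = 0 := by simp [sq, hN]
      have h2 : sq Q N = 0 := by simp [sq, hN]
      have h3 : ∀ A : Matrix n n ℂ, A.PosSemidef → trunc A 0 = 0 := by
        intro A hA
        have : (fun i => min (ev A i) 0) = fun _ => (0 : ℝ) := by
          ext i; exact min_eq_right (ev_nonneg hA i)
        rw [trunc, this, ← smul_one_eq_conj]; simp
      simp [ℓ, M, h1, h2, h3 P hP, h3 Q hQ, LD]
    | succ j ih =>
      intro hj
      have ih' := ih (by omega)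
      set m := N - (j + 1) with hm
      have hm1 : N - j = m + 1 := by omega
      have hmN : m < N := by omega
      rw [hm1] at ih'
      have hMp : (M (m + 1)).PosDef :=
        (PosDef.one.add_posSemidef (trunc_psd hP (sq_nonneg hP _))).add_posSemidef
          (trunc_psd hQ (sq_nonneg hQ _))
      have sP := sq_succ_le hP hmN
      have sQ := sq_succ_le hQ hmN
      have nP := sq_nonneg hP (m + 1)
      have nQ := sq_nonneg hQ (m + 1)
      have hstep := LD_step (Δ := (trunc P (sq P m) - trunc P (sq P (m + 1)))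
          + (trunc Q (sq Q m) - trunc Q (sq Q (m + 1)))) hMp
        ((trunc_sub_psd P sP).add (trunc_sub_psd Q sQ))
        (c := 1 + sq P (m + 1) + sq Q (m + 1))
        (ω := (sq P m - sq P (m + 1)) + (sq Q m - sq Q (m + 1))) (r := (m : ℝ) + 1)
        (by positivity) (by linarith)
        (by
          have := (trunc_le P (sq P (m + 1))).add (trunc_le Q (sq Q (m + 1)))
          refine psd_of_eq this ?_
          simp only [M]; push_cast; module)
        (by
          have := (trunc_sub_le P sP).add (trunc_sub_le Q sQ)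
          refine psd_of_eq this ?_
          push_cast; module)
        (by
          rw [trace_add, Complex.add_re, mul_add]
          exact add_le_add (trace_trunc_sub hP hmN) (trace_trunc_sub hQ hmN))
      have e1 : M (m + 1) + ((trunc P (sq P m) - trunc P (sq P (m + 1)))
          + (trunc Q (sq Q m) - trunc Q (sq Q (m + 1)))) = M m := by
        simp only [M]; abel
      have e2 : 1 + sq P (m + 1) + sq Q (m + 1)
          + ((sq P m - sq P (m + 1)) + (sq Q m - sq Q (m + 1))) = 1 + sq P m + sq Q m := by ring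
      rw [e1, e2] at hstep
      rw [Finset.sum_eq_sum_Ico_succ_bot hmN]
      push_cast at ih'
      simp only [ℓ] at ih' ⊢
      linarith
  have h := key N le_rfl
  simp only [Nat.sub_self, Nat.cast_zero, zero_mul, zero_add] at h
  have e1 : ∀ A : Matrix n n ℂ, A.PosSemidef → trunc A (sq A 0) = A := by
    intro A hA
    conv_rhs => rw [spec hA.1]
    unfold trunc
    congr 3
    ext i
    refine min_eq_left ?_
    have hlt : 0 < Fintype.card n := Fintype.card_pos_iff.mpr ⟨i⟩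
    have : sq A 0 = ev A ((pos n).symm ⟨0, hlt⟩) := by simp [sq, hlt]
    rw [this]
    exact ev_anti A (by rw [Equiv.apply_symm_apply, Fin.le_def]; exact Nat.zero_le _)
  simp only [M, e1 P hP, e1 Q hQ] at h
  refine le_trans (le_of_eq ?_) h
  rw [← Finset.range_eq_Ico, ← Fin.sum_univ_eq_sum_range,
    ← Equiv.sum_comp (pos n) (fun m => ℓ m)]
  simp [ℓ, sq_pos]

end Crest.Agent.QEnt
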