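import Mathlib
import Crest.Agent.QEnt.Fiedler
import Crest.Prelude.Def_QState

/-! Von Neumann entropy: log-determinant representation, pinching, tensor products. -/

set_option linter.unusedSectionVars false

namespace Crest.Agent.QEnt

open Matrix MeasureTheory Filter Topology
open scoped ComplexOrder Kronecker

variable {n k : Type*} [Fintype n] [DecidableEq n] [Fintype k] [DecidableEq k]

/-- unnormalised entropy -/
noncomputable def Sn (A : Matrix n n ℂ) : ℝ := ∑ i, Real.negMulLog (ev A i)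

lemma vn_eq (A : Matrix n n ℂ) : Crest.Quantum.vnEntropy A = Sn A := by
  unfold Crest.Quantum.vnEntropy Sn ev
  split_ifs with h
  · simp [Real.negMulLog]
  · simp

/-- real trace -/
noncomputable def tr (A : Matrix n n ℂ) : ℝ := A.trace.re

lemma tr_nonneg {A : Matrix n n ℂ} (h : A.PosSemidef) : 0 ≤ tr A :=
  (Complex.nonneg_iff.mp h.trace_nonneg).1

lemma tr_add (A B : Matrix n n ℂ) : tr (A + B) = tr A + tr B := by simp [tr, trace_add]

lemma tr_smul (c : ℝ) (A : Matrix n n ℂ) : tr ((c : ℂ) • A) = c * tr A := by simp [tr, trace_smul]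

lemma tr_fromBlocks (P : Matrix n n ℂ) (W : Matrix n k ℂ) (W' : Matrix k n ℂ) (Q : Matrix k k ℂ) :
    tr (fromBlocks P W W' Q) = tr P + tr Q := by
  simp [tr, trace, Fintype.sum_sum_type]

/-- `log det (A + t) - n log t` -/
noncomputable def El (A : Matrix n n ℂ) (t : ℝ) : ℝ :=
  ∑ i, (Real.log (ev A i + t) - Real.log t)

lemma El_eq {A : Matrix n n ℂ} (h : A.PosSemidef) {t : ℝ} (ht : 0 < t) :
    El A t = LD (A + (t : ℂ) • (1 : Matrix n n ℂ)) - Fintype.card n * Real.log t := by
  rw [LD_shift h ht, El, Finset.sum_sub_distrib]; simp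

lemma el_ii (l a b : ℝ) :
    IntervalIntegrable (fun t => Real.log (l + t) - Real.log t) volume a b := by
  refine IntervalIntegrable.sub ?_ intervalIntegral.intervalIntegrable_log'
  have := (intervalIntegral.intervalIntegrable_log' (a := a + l) (b := b + l)).comp_add_left l
  simpa using this

lemma el_int (l R : ℝ) : ∫ t in (0 : ℝ)..R, (Real.log (l + t) - Real.log t)
    = (l + R) * Real.log (l + R) - R * Real.log R + Real.negMulLog l := by
  have h1 : IntervalIntegrable (fun t => Real.log (l + t)) volume 0 R := by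
    have := (intervalIntegral.intervalIntegrable_log' (a := 0 + l) (b := R + l)).comp_add_left l
    simpa using this
  rw [intervalIntegral.integral_sub h1 intervalIntegral.intervalIntegrable_log',
    intervalIntegral.integral_comp_add_left (fun t => Real.log t), integral_log, integral_log]
  simp [Real.negMulLog]; ring

lemma El_ii (A : Matrix n n ℂ) (a b : ℝ) : IntervalIntegrable (El A) volume a b := by
  have := IntervalIntegrable.sum (μ := volume) (a := a) (b := b) Finset.univ
    (f := fun i t => Real.log (ev A i + t) - Real.log t) fun i _ => el_ii _ a b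
  have e : El A = ∑ i, fun t => Real.log (ev A i + t) - Real.log t := by
    ext t; simp [El]
  rw [e]; exact this

lemma tend_el (l : ℝ) : Tendsto (fun R => (l + R) * Real.log (l + R) - R * Real.log R
    - l * (Real.log R + 1)) atTop (𝓝 0) := by
  have h1 := Real.tendsto_mul_log_one_add_div_atTop l
  have h2 : Tendsto (fun s : ℝ => 1 + l / s) atTop (𝓝 (1 + 0)) :=
    tendsto_const_nhds.add (tendsto_const_nhds.div_atTop tendsto_id)
  have h3 := ((Real.continuousAt_log (x := 1 + 0) (by norm_num)).tendsto.comp h2).const_mul l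
  have h4 := (h1.add h3).sub_const l
  simp only [add_zero, Real.log_one, mul_zero, sub_self] at h4
  refine h4.congr' ?_
  filter_upwards [eventually_gt_atTop (|l|)] with s hs
  have hs0 : 0 < s := lt_of_le_of_lt (abs_nonneg l) hs
  have : 0 < l + s := by linarith [neg_abs_le l]
  have e : Real.log (1 + l / s) = Real.log (l + s) - Real.log s := by
    rw [← Real.log_div this.ne' hs0.ne']; congr 1; field_simp; ring
  simp only [Function.comp, e]; ring

lemma tend_El {A : Matrix n n ℂ} (h : A.IsHermitian) :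
    Tendsto (fun R => (∫ t in (0 : ℝ)..R, El A t) - tr A * (Real.log R + 1)) atTop
      (𝓝 (Sn A)) := by
  have h1 := tendsto_finsetSum (Finset.univ : Finset n)
    fun i _ => (tend_el (ev A i)).add_const (Real.negMulLog (ev A i))
  simp only [zero_add] at h1
  refine h1.congr fun R => ?_
  unfold El
  rw [intervalIntegral.integral_finsetSum fun i _ => el_ii _ _ _, tr, ← sum_ev h, Finset.sum_mul,
    ← Finset.sum_sub_distrib]
  refine Finset.sum_congr rfl fun i _ => ?_
  rw [el_int]; ring

lemma psd_block₁₁ {P : Matrix n n ℂ} {W : Matrix n k ℂ} {W' : Matrix k n ℂ} {Q : Matrix k k ℂ}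
    (h : (fromBlocks P W W' Q).PosSemidef) : P.PosSemidef :=
  h.submatrix Sum.inl

lemma psd_block₂₂ {P : Matrix n n ℂ} {W : Matrix n k ℂ} {W' : Matrix k n ℂ} {Q : Matrix k k ℂ}
    (h : (fromBlocks P W W' Q).PosSemidef) : Q.PosSemidef :=
  h.submatrix Sum.inr

lemma LD_fischer {P : Matrix n n ℂ} {W : Matrix n k ℂ} {Q : Matrix k k ℂ}
    (h : (fromBlocks P W Wᴴ Q).PosDef) : LD (fromBlocks P W Wᴴ Q) ≤ LD P + LD Q := by
  have hP : P.PosDef := h.submatrix Sum.inl_injective
  let _ : Invertible P := hP.isUnit.invertible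
  have hS := (hP.fromBlocks₁₁ W Q).mp h.posSemidef
  have hdet := det_fromBlocks₁₁ P W Wᴴ Q
  rw [invOf_eq_nonsing_inv] at hdet
  have hne : (Q - Wᴴ * P⁻¹ * W).det ≠ 0 := by
    intro h0
    have := h.det_pos.ne'
    rw [hdet, h0, mul_zero] at this
    exact this rfl
  have hS' : (Q - Wᴴ * P⁻¹ * W).PosDef := hS.posDef_iff_det_ne_zero.mpr hne
  have e : LD (fromBlocks P W Wᴴ Q) = LD P + LD (Q - Wᴴ * P⁻¹ * W) := by
    unfold LD
    rw [hdet, norm_mul, Real.log_mul (norm_ne_zero_iff.mpr hP.det_pos.ne')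
      (norm_ne_zero_iff.mpr hne)]
  rw [e]
  refine add_le_add le_rfl (LD_mono hS' ?_)
  simpa using hP.inv.posSemidef.conjTranspose_mul_mul_same W

lemma fromBlocks_shift (P : Matrix n n ℂ) (W : Matrix n k ℂ) (W' : Matrix k n ℂ)
    (Q : Matrix k k ℂ) (t : ℂ) : fromBlocks P W W' Q + t • (1 : Matrix (n ⊕ k) (n ⊕ k) ℂ)
      = fromBlocks (P + t • 1) W W' (Q + t • 1) := by
  rw [← fromBlocks_one, fromBlocks_smul, fromBlocks_add]; simp

/-- pinching -/
lemma Sn_pinch {P : Matrix n n ℂ} {W : Matrix n k ℂ} {W' : Matrix k n ℂ} {Q : Matrix k k ℂ}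
    (h : (fromBlocks P W W' Q).PosSemidef) : Sn (fromBlocks P W W' Q) ≤ Sn P + Sn Q := by
  have hW : W' = Wᴴ := ((isHermitian_fromBlocks_iff.mp h.1).2.1).symm
  subst hW
  have hP := psd_block₁₁ h
  have hQ := psd_block₂₂ h
  refine le_of_tendsto_of_tendsto (tend_El h.1) ((tend_El hP.1).add (tend_El hQ.1)) ?_
  filter_upwards [eventually_gt_atTop 0] with R hR
  have h1 : ∫ t in (0 : ℝ)..R, El (fromBlocks P W Wᴴ Q) t
      ≤ ∫ t in (0 : ℝ)..R, (El P t + El Q t) := by
    rw [intervalIntegral.integral_of_le hR.le, intervalIntegral.integral_of_le hR.le]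
    refine setIntegral_mono_on
      ((intervalIntegrable_iff_integrableOn_Ioc_of_le hR.le).mp (El_ii _ _ _))
      ((intervalIntegrable_iff_integrableOn_Ioc_of_le hR.le).mp ((El_ii _ _ _).add (El_ii _ _ _)))
      measurableSet_Ioc fun t ht => ?_
    have h2 := shift_posDef h ht.1
    rw [El_eq h ht.1, El_eq hP ht.1, El_eq hQ ht.1]
    rw [fromBlocks_shift] at h2 ⊢
    have h3 := LD_fischer h2
    simp only [Fintype.card_sum, Nat.cast_add]
    linarith
  rw [intervalIntegral.integral_add (El_ii _ _ _) (El_ii _ _ _)] at h1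
  rw [tr_fromBlocks]
  linarith

lemma Sn_of_charpoly {A : Matrix n n ℂ} {B : Matrix k k ℂ} (hA : A.IsHermitian)
    (hB : B.IsHermitian) (h : A.charpoly = B.charpoly) : Sn A = Sn B := by
  have h1 := hA.roots_charpoly_eq_eigenvalues
  have h2 := hB.roots_charpoly_eq_eigenvalues
  rw [h, h2] at h1
  have h4 := congrArg (fun s => (Multiset.map (fun z : ℂ => Real.negMulLog z.re) s).sum) h1
  simp only [Multiset.map_map] at h4
  unfold Sn
  rw [ev_eq hA, ev_eq hB]
  exact h4.symm

lemma Sn_submatrix (A : Matrix n n ℂ) (e : k ≃ n) : Sn (A.submatrix e e) = Sn A := by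
  by_cases hA : A.IsHermitian
  · refine Sn_of_charpoly (hA.submatrix e) hA ?_
    have := charpoly_reindex e.symm A
    simpa using this
  · have hB : ¬ (A.submatrix e e).IsHermitian := by rwa [isHermitian_submatrix_equiv]
    simp [Sn, ev, hA, hB]

lemma Sn_smul {A : Matrix n n ℂ} (h : A.IsHermitian) (c : ℝ) :
    Sn ((c : ℂ) • A) = c * Sn A + Real.negMulLog c * tr A := by
  have := sum_ev_affine h c 0 Real.negMulLog
  simp only [Complex.ofReal_zero, zero_smul, add_zero] at this
  unfold Sn
  rw [this, tr, ← sum_ev h, Finset.mul_sum, Finset.mul_sum, ← Finset.sum_add_distrib]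
  refine Finset.sum_congr rfl fun i _ => ?_
  rw [Real.negMulLog_mul]; ring

lemma Sn_zero : Sn (0 : Matrix n n ℂ) = 0 := by
  have := Sn_smul (A := (0 : Matrix n n ℂ)) isHermitian_zero 0
  simpa using this

lemma Sn_kron {A : Matrix n n ℂ} {B : Matrix k k ℂ} (hA : A.IsHermitian) (hB : B.IsHermitian) :
    Sn (A ⊗ₖ B) = tr B * Sn A + tr A * Sn B := by
  have e : A ⊗ₖ B = (eU A ⊗ₖ eU B) * dR (fun p : n × k => ev A p.1 * ev B p.2)
      * (eU A ⊗ₖ eU B)ᴴ := by
    have : dR (fun p : n × k => ev A p.1 * ev B p.2) = dR (ev A) ⊗ₖ dR (ev B) := by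
      simp [dR, diagonal_kronecker_diagonal]
    rw [this, conjTranspose_kronecker, ← mul_kronecker_mul, ← mul_kronecker_mul, ← spec hA,
      ← spec hB]
  have hU : (eU A ⊗ₖ eU B)ᴴ * (eU A ⊗ₖ eU B) = 1 := by
    rw [conjTranspose_kronecker, ← mul_kronecker_mul, eU_star_mul, eU_star_mul, one_kronecker_one]
  unfold Sn
  rw [e, sum_ev_of_conj hU, Fintype.sum_prod_type, tr, tr, ← sum_ev hA, ← sum_ev hB]
  simp only [Real.negMulLog_mul, Finset.sum_add_distrib, ← Finset.sum_mul, ← Finset.mul_sum]

end Crest.Agent.QEnt
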