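import Mathlib

/-! Scalar integrals for the entropic norm-compression inequality. -/

namespace Crest.Agent.QEnt

open MeasureTheory Set Filter Topology

noncomputable def W0 (x u s : ℝ) : ℝ := x / ((u + s) * (x + u + s))
noncomputable def dl (x u z v s : ℝ) : ℝ := (u + s) * (v + s) + x * (v + s) + z * (u + s)
noncomputable def Wf (x u z v s : ℝ) : ℝ := x * (v + s) / ((u + s) * dl x u z v s)
noncomputable def Wt (x u z v s : ℝ) : ℝ := if 0 < s then Wf x u z v s else 0
noncomputable def ind (a b : ℝ) : ℝ := if a < b then 1 else 0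
noncomputable def kap (x u : ℝ) (W : ℝ → ℝ) (a : ℝ) : ℝ :=
  ∫ s in Ioi (-u), W s * ind 1 (a * ((u + s) / x))

lemma dl_symm (x u z v s : ℝ) : dl z v x u s = dl x u z v s := by unfold dl; ring

lemma ind_nonneg (a b : ℝ) : 0 ≤ ind a b := by unfold ind; split_ifs <;> norm_num

lemma tend_log (d : ℝ) : Tendsto (fun s => Real.log (d + s) - Real.log s) atTop (𝓝 0) := by
  have h1 : Tendsto (fun s : ℝ => 1 + d / s) atTop (𝓝 (1 + 0)) :=
    tendsto_const_nhds.add (tendsto_const_nhds.div_atTop tendsto_id)
  have h2 := (Real.continuousAt_log (x := 1 + 0) (by norm_num)).tendsto.comp h1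
  simp only [add_zero, Real.log_one] at h2
  refine h2.congr' ?_
  filter_upwards [eventually_gt_atTop (|d|)] with s hs
  have hs0 : 0 < s := lt_of_le_of_lt (abs_nonneg d) hs
  have : 0 < d + s := by linarith [neg_abs_le d]
  simp only [Function.comp]
  rw [← Real.log_div this.ne' hs0.ne']
  congr 1; field_simp; ring

lemma W0_int {x u c : ℝ} (hx : 0 < x) (hc : -u < c) :
    IntegrableOn (W0 x u) (Ioi c) ∧
      ∫ s in Ioi c, W0 x u s = Real.log (x + u + c) - Real.log (u + c) := by
  have hd : ∀ s ∈ Ici c, HasDerivAt (fun s => Real.log (u + s) - Real.log (x + u + s))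
      (W0 x u s) s := by
    intro s hs
    have h1 : 0 < u + s := by simp only [mem_Ici] at hs; linarith
    have h2 : 0 < x + u + s := by linarith
    have := (((hasDerivAt_id s).const_add u).log h1.ne').sub
      (((hasDerivAt_id s).const_add (x + u)).log h2.ne')
    refine HasDerivAt.congr_deriv this ?_
    simp only [W0, id]
    field_simp; ring
  have hp : ∀ s ∈ Ioi c, 0 ≤ W0 x u s := by
    intro s hs
    have h1 : 0 < u + s := by simp only [mem_Ioi] at hs; linarith
    have h2 : 0 < x + u + s := by linarith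
    unfold W0; positivity
  have ht : Tendsto (fun s => Real.log (u + s) - Real.log (x + u + s)) atTop (𝓝 0) := by
    have := (tend_log u).sub (tend_log (x + u))
    simp only [sub_zero] at this
    refine this.congr fun s => by ring
  refine ⟨integrableOn_Ioi_deriv_of_nonneg' hd hp ht, ?_⟩
  rw [integral_Ioi_of_hasDerivAt_of_nonneg' hd hp ht]; ring

lemma ind_eq_indicator {x u a : ℝ} (hx : 0 < x) (ha : 0 < a) (W : ℝ → ℝ) :
    (fun s => W s * ind 1 (a * ((u + s) / x))) = (Ioi (x / a - u)).indicator W := by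
  ext s
  have : 1 < a * ((u + s) / x) ↔ x / a - u < s := by
    rw [← mul_div_assoc, lt_div_iff₀ hx, sub_lt_iff_lt_add, div_lt_iff₀ ha]
    constructor <;> intro h <;> linarith
  by_cases h : x / a - u < s
  · simp [ind, this, h]
  · simp [ind, this, h]

lemma kap_eq {x u a : ℝ} (hx : 0 < x) (ha : 0 < a) (W : ℝ → ℝ) :
    kap x u W a = ∫ s in Ioi (x / a - u), W s := by
  unfold kap
  rw [ind_eq_indicator hx ha, setIntegral_indicator measurableSet_Ioi, Ioi_inter_Ioi,
    max_eq_right]
  have : 0 < x / a := by positivity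
  linarith

lemma kap_zero (x u : ℝ) (W : ℝ → ℝ) : kap x u W 0 = 0 := by
  simp [kap, ind, not_lt.mpr (zero_le_one' ℝ)]

lemma S1_int {x u a : ℝ} (hx : 0 < x) (ha : 0 ≤ a) :
    IntegrableOn (fun s => W0 x u s * ind 1 (a * ((u + s) / x))) (Ioi (-u)) := by
  rcases ha.eq_or_lt with h | h
  · subst h; simp [ind, not_lt.mpr (zero_le_one' ℝ)]
  rw [ind_eq_indicator hx h]
  have h0 : 0 < x / a := by positivity
  exact ((integrable_indicator_iff measurableSet_Ioi).mpr
    (W0_int hx (by linarith)).1).integrableOn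

lemma S1 {x u a : ℝ} (hx : 0 < x) (ha : 0 ≤ a) : kap x u (W0 x u) a = Real.log (1 + a) := by
  rcases ha.eq_or_lt with h | h
  · subst h; simp [kap_zero]
  have h0 : 0 < x / a := by positivity
  rw [kap_eq hx h, (W0_int hx (by linarith)).2,
    ← Real.log_div (by linarith) (by linarith)]
  congr 1
  rw [show x + u + (x / a - u) = x + x / a by ring, show u + (x / a - u) = x / a by ring]
  field_simp; ring

lemma dl_pos {x u z v s : ℝ} (hx : 0 < x) (hu : 0 < u) (hz : 0 < z) (hv : 0 < v) (hs : 0 ≤ s) :
    0 < dl x u z v s := by unfold dl; positivity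

lemma Wf_nonneg {x u z v s : ℝ} (hx : 0 < x) (hu : 0 < u) (hz : 0 < z) (hv : 0 < v) (hs : 0 ≤ s) :
    0 ≤ Wf x u z v s := by
  have := dl_pos hx hu hz hv hs
  unfold Wf; positivity

lemma Wf_le {x u z v s : ℝ} (hx : 0 < x) (hu : 0 < u) (hz : 0 < z) (hv : 0 < v) (hs : 0 ≤ s) :
    Wf x u z v s ≤ W0 x u s := by
  have := dl_pos hx hu hz hv hs
  unfold Wf W0
  rw [div_le_div_iff₀ (by positivity) (by positivity)]
  have : 0 ≤ x * (u + s) * (z * (u + s)) := by positivity
  unfold dl; nlinarith

lemma Wt_nonneg {x u z v : ℝ} (hx : 0 < x) (hu : 0 < u) (hz : 0 < z) (hv : 0 < v) (s : ℝ) :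
    0 ≤ Wt x u z v s := by
  unfold Wt; split_ifs with h
  · exact Wf_nonneg hx hu hz hv h.le
  · exact le_rfl

lemma W0_nonneg {x u s : ℝ} (hx : 0 < x) (hs : -u < s) : 0 ≤ W0 x u s := by
  have h1 : 0 < u + s := by linarith
  have h2 : 0 < x + u + s := by linarith
  unfold W0; positivity

lemma Wt_le {x u z v s : ℝ} (hx : 0 < x) (hu : 0 < u) (hz : 0 < z) (hv : 0 < v) (hs : -u < s) :
    Wt x u z v s ≤ W0 x u s := by
  unfold Wt; split_ifs with h
  · exact Wf_le hx hu hz hv h.le
  · exact W0_nonneg hx hs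

lemma Wf_meas (x u z v : ℝ) : Measurable (Wf x u z v) := by
  unfold Wf dl; fun_prop

lemma W0_meas (x u : ℝ) : Measurable (W0 x u) := by
  unfold W0; fun_prop

lemma Wt_meas (x u z v : ℝ) : Measurable (Wt x u z v) :=
  Measurable.ite measurableSet_Ioi (Wf_meas x u z v) measurable_const

lemma Wf_int {x u z v c : ℝ} (hx : 0 < x) (hu : 0 < u) (hz : 0 < z) (hv : 0 < v) (hc : 0 ≤ c) :
    IntegrableOn (Wf x u z v) (Ioi c) := by
  refine Integrable.mono' (W0_int (u := u) (c := c) hx (by linarith)).1
    (Wf_meas x u z v).aestronglyMeasurable ?_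
  filter_upwards [ae_restrict_mem measurableSet_Ioi] with s hs
  have hs0 : 0 ≤ s := hc.trans (le_of_lt hs)
  rw [Real.norm_of_nonneg (Wf_nonneg hx hu hz hv hs0)]
  exact Wf_le hx hu hz hv hs0

lemma Wf_sum_int {x u z v c : ℝ} (hx : 0 < x) (hu : 0 < u) (hz : 0 < z) (hv : 0 < v)
    (hc : 0 ≤ c) : (∫ s in Ioi c, Wf x u z v s) + ∫ s in Ioi c, Wf z v x u s
      = Real.log (1 + x / (u + c) + z / (v + c)) := by
  rw [← integral_add (Wf_int hx hu hz hv hc) (Wf_int hz hv hx hu hc)]
  have hd : ∀ s ∈ Ici c, HasDerivAt (fun s => -Real.log (1 + x / (u + s) + z / (v + s)))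
      (Wf x u z v s + Wf z v x u s) s := by
    intro s hs
    have hs0 : 0 ≤ s := hc.trans hs
    have h1 : 0 < u + s := by positivity
    have h2 : 0 < v + s := by positivity
    have h3 : 0 < 1 + x / (u + s) + z / (v + s) := by positivity
    have := (((((hasDerivAt_const s x).div ((hasDerivAt_id s).const_add u) h1.ne').const_add 1).add
      ((hasDerivAt_const s z).div ((hasDerivAt_id s).const_add v) h2.ne')).log h3.ne').neg
    refine HasDerivAt.congr_deriv this ?_
    have h4 := dl_pos hx hu hz hv hs0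
    have e : 1 + x / (u + s) + z / (v + s) = dl x u z v s / ((u + s) * (v + s)) := by
      unfold dl; field_simp
    simp only [Wf, id, Pi.add_apply, Pi.div_apply, dl_symm x u z v, e]
    field_simp; ring
  have ht : Tendsto (fun s => -Real.log (1 + x / (u + s) + z / (v + s))) atTop (𝓝 0) := by
    have h1 : Tendsto (fun s : ℝ => 1 + x / (u + s) + z / (v + s)) atTop (𝓝 (1 + 0 + 0)) :=
      (tendsto_const_nhds.add (tendsto_const_nhds.div_atTop
        (tendsto_atTop_add_const_left _ _ tendsto_id))).add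
        (tendsto_const_nhds.div_atTop (tendsto_atTop_add_const_left _ _ tendsto_id))
    have h2 := ((Real.continuousAt_log (x := 1 + 0 + 0) (by norm_num)).tendsto.comp h1).neg
    simpa using h2
  rw [integral_Ioi_of_hasDerivAt_of_nonneg' hd (fun s hs => add_nonneg
    (Wf_nonneg hx hu hz hv (hc.trans (le_of_lt hs))) (Wf_nonneg hz hv hx hu
      (hc.trans (le_of_lt hs)))) ht]
  ring

lemma two_thr_aux {x u z v a b : ℝ} (hx : 0 < x) (hu : 0 < u) (hz : 0 < z) (hv : 0 < v)
    (ha : 0 ≤ a) (hab : a ≤ b) : (∫ s in Ioi a, Wf x u z v s) + ∫ s in Ioi b, Wf z v x u s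
      ≤ Real.log (1 + x / (u + a) + z / (v + b)) := by
  have hb : 0 ≤ b := ha.trans hab
  rw [← intervalIntegral.integral_interval_add_Ioi (Wf_int hx hu hz hv ha) (Wf_int hx hu hz hv hb),
    add_assoc, Wf_sum_int hx hu hz hv hb]
  set q := z / (v + b) with hq
  have hq0 : 0 ≤ q := by positivity
  have hd : ∀ s ∈ uIcc a b, HasDerivAt (fun s => -Real.log (1 + x / (u + s) + q))
      (x / ((u + s) * ((u + s) * (1 + q) + x))) s := by
    intro s hs
    rw [uIcc_of_le hab] at hs
    have hs0 : 0 ≤ s := ha.trans hs.1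
    have h1 : 0 < u + s := by positivity
    have h3 : 0 < 1 + x / (u + s) + q := by positivity
    have := (((((hasDerivAt_const s x).div ((hasDerivAt_id s).const_add u)
      h1.ne').const_add 1).add_const q).log h3.ne').neg
    refine HasDerivAt.congr_deriv this ?_
    simp only [id, Pi.div_apply]
    field_simp; ring
  have hci : IntervalIntegrable (fun s => x / ((u + s) * ((u + s) * (1 + q) + x))) volume a b := by
    refine ContinuousOn.intervalIntegrable ?_
    refine continuousOn_const.div (by fun_prop) ?_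
    intro s hs
    rw [uIcc_of_le hab] at hs
    have hs0 : 0 ≤ s := ha.trans hs.1
    positivity
  have h1 := intervalIntegral.integral_eq_sub_of_hasDerivAt hd hci
  have h2 : ∫ s in a..b, Wf x u z v s
      ≤ ∫ s in a..b, x / ((u + s) * ((u + s) * (1 + q) + x)) := by
    refine intervalIntegral.integral_mono_on hab ?_ hci ?_
    · exact (intervalIntegrable_iff_integrableOn_Ioc_of_le hab).mpr
        ((Wf_int hx hu hz hv ha).mono_set Ioc_subset_Ioi_self)
    · intro s hs
      have hs0 : 0 ≤ s := ha.trans hs.1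
      have h4 := dl_pos hx hu hz hv hs0
      unfold Wf
      rw [div_le_div_iff₀ (by positivity) (by positivity)]
      have h5 : q * (v + s) ≤ z := by
        rw [hq, div_mul_eq_mul_div, div_le_iff₀ (by positivity)]
        exact mul_le_mul_of_nonneg_left (by linarith [hs.2]) hz.le
      have h6 : 0 ≤ x * (u + s) * (u + s) := by positivity
      have h7 := mul_le_mul_of_nonneg_left h5 h6
      unfold dl; nlinarith
  linarith

lemma two_thr {x u z v a b : ℝ} (hx : 0 < x) (hu : 0 < u) (hz : 0 < z) (hv : 0 < v)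
    (ha : 0 ≤ a) (hb : 0 ≤ b) : (∫ s in Ioi a, Wf x u z v s) + ∫ s in Ioi b, Wf z v x u s
      ≤ Real.log (1 + x / (u + a) + z / (v + b)) := by
  rcases le_total a b with h | h
  · exact two_thr_aux hx hu hz hv ha h
  · have := two_thr_aux hz hv hx hu hb h
    rw [add_comm, add_right_comm] at this
    exact this

lemma kap_Wt {x u z v a : ℝ} (hx : 0 < x) (ha : 0 < a) :
    kap x u (Wt x u z v) a = ∫ s in Ioi (max (x / a - u) 0), Wf x u z v s := by
  rw [kap_eq hx ha]
  have : Wt x u z v = (Ioi 0).indicator (Wf x u z v) := by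
    ext s; by_cases h : 0 < s <;> simp [Wt, h]
  rw [this, setIntegral_indicator measurableSet_Ioi, Ioi_inter_Ioi]

lemma thr_le {x u a : ℝ} (_hx : 0 < x) (hu : 0 < u) (ha : 0 < a) :
    x / (u + max (x / a - u) 0) ≤ a := by
  have h1 : x / a ≤ u + max (x / a - u) 0 := by linarith [le_max_left (x / a - u) 0]
  have h2 : 0 < u + max (x / a - u) 0 := by linarith [le_max_right (x / a - u) 0]
  rw [div_le_iff₀ h2]
  rw [div_le_iff₀ ha] at h1
  linarith

lemma kap_le_one {x u z v a : ℝ} (hx : 0 < x) (hu : 0 < u) (hz : 0 < z) (hv : 0 < v)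
    (ha : 0 ≤ a) : kap x u (Wt x u z v) a ≤ Real.log (1 + a) := by
  rw [← S1 (u := u) hx ha]
  unfold kap
  refine integral_mono_of_nonneg ?_ (S1_int hx ha) ?_
  · exact Eventually.of_forall fun s => mul_nonneg (Wt_nonneg hx hu hz hv s) (ind_nonneg _ _)
  · filter_upwards [ae_restrict_mem measurableSet_Ioi] with s hs
    exact mul_le_mul_of_nonneg_right (Wt_le hx hu hz hv hs) (ind_nonneg _ _)

lemma S2 {x u z v a b : ℝ} (hx : 0 < x) (hu : 0 < u) (hz : 0 < z) (hv : 0 < v)
    (ha : 0 ≤ a) (hb : 0 ≤ b) :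
    kap x u (Wt x u z v) a + kap z v (Wt z v x u) b ≤ Real.log (1 + a + b) := by
  rcases ha.eq_or_lt with h | h
  · subst h; simpa [kap_zero] using kap_le_one hz hv hx hu hb
  rcases hb.eq_or_lt with h' | h'
  · subst h'; simpa [kap_zero] using kap_le_one hx hu hz hv ha
  rw [kap_Wt hx h, kap_Wt hz h']
  refine (two_thr hx hu hz hv (le_max_right _ _) (le_max_right _ _)).trans ?_
  have h1 := thr_le hx hu h
  have h2 := thr_le hz hv h'
  have h3 : 0 ≤ max (x / a - u) 0 := le_max_right _ _
  have h4 : 0 ≤ max (z / b - v) 0 := le_max_right _ _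
  exact Real.log_le_log (by positivity) (by linarith)

/-- the bound integrand -/
noncomputable def bt (x u z v s : ℝ) : ℝ :=
  (W0 x u s - Wt x u z v s) * ((u + s) / x) * x + Wt x u z v s * u

lemma bt_nonneg {x u z v s : ℝ} (hx : 0 < x) (hu : 0 < u) (hz : 0 < z) (hv : 0 < v)
    (hs : -u < s) : 0 ≤ bt x u z v s := by
  have h1 := Wt_le hx hu hz hv hs
  have h2 := Wt_nonneg hx hu hz hv s
  have h3 : 0 < u + s := by linarith
  unfold bt
  have : 0 ≤ W0 x u s - Wt x u z v s := by linarith
  positivity

lemma bt_meas (x u z v : ℝ) : Measurable (bt x u z v) := by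
  have h1 := W0_meas x u
  have h2 := Wt_meas x u z v
  unfold bt; fun_prop

lemma bt_neg_int {x u z v : ℝ} (hx : 0 < x) (hu : 0 < u) :
    ∫⁻ s in Ioc (-u) 0, ENNReal.ofReal (bt x u z v s)
      = ENNReal.ofReal (x * (Real.log (x + u) - Real.log x)) := by
  have hd : ∀ s ∈ uIcc (-u) 0, HasDerivAt (fun s => x * Real.log (x + u + s))
      (x / (x + u + s)) s := by
    intro s hs
    rw [uIcc_of_le (by linarith)] at hs
    have h2 : 0 < x + u + s := by linarith [hs.1]
    have := (((hasDerivAt_id s).const_add (x + u)).log h2.ne').const_mul x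
    refine HasDerivAt.congr_deriv this ?_
    simp only [id]; field_simp
  have hci : IntervalIntegrable (fun s => x / (x + u + s)) volume (-u) 0 := by
    refine ContinuousOn.intervalIntegrable ?_
    refine continuousOn_const.div (by fun_prop) ?_
    intro s hs
    rw [uIcc_of_le (by linarith)] at hs
    have h2 : 0 < x + u + s := by linarith [hs.1]
    exact h2.ne'
  have h1 := intervalIntegral.integral_eq_sub_of_hasDerivAt hd hci
  rw [intervalIntegral.integral_of_le (by linarith)] at h1
  have e : x * (Real.log (x + u) - Real.log x) = ∫ s in Ioc (-u) 0, x / (x + u + s) := by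
    rw [h1]; simp; ring
  rw [e, ofReal_integral_eq_lintegral_ofReal
    ((intervalIntegrable_iff_integrableOn_Ioc_of_le (by linarith)).mp hci)]
  · refine setLIntegral_congr_fun measurableSet_Ioc fun s hs => ?_
    have h2 : 0 < x + u + s := by linarith [hs.1]
    have h3 : 0 < u + s := by linarith [hs.1]
    have h4 : ¬ 0 < s := not_lt.mpr hs.2
    simp only [bt, Wt, h4, if_false, W0]
    congr 1; field_simp; ring
  · filter_upwards [ae_restrict_mem measurableSet_Ioc] with s hs
    have h2 : 0 < x + u + s := by linarith [hs.1]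
    simp only [Pi.zero_apply]
    positivity

lemma bt_pos_int {x u z v l m : ℝ} (hx : 0 < x) (hu : 0 < u) (hz : 0 < z) (hv : 0 < v)
    (hl : 0 < l) (hm : 0 < m) (h1 : l + m = x + z + u + v) (h2 : l * m = x * v + u * z + u * v) :
    0 ≤ (l * Real.log l + m * Real.log m - x * Real.log (x + u)
          - z * Real.log (z + v) - u * Real.log u - v * Real.log v) ∧
    ∫⁻ s in Ioi 0, ENNReal.ofReal (bt x u z v s + bt z v x u s)
      = ENNReal.ofReal (l * Real.log l + m * Real.log m - x * Real.log (x + u)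
          - z * Real.log (z + v) - u * Real.log u - v * Real.log v) := by
  let G : ℝ → ℝ := fun s => x * Real.log (x + u + s) + z * Real.log (z + v + s)
    + u * Real.log (u + s) + v * Real.log (v + s) - l * Real.log (l + s) - m * Real.log (m + s)
  let g : ℝ → ℝ := fun s => x / (x + u + s) + z / (z + v + s)
    + u / (u + s) + v / (v + s) - l / (l + s) - m / (m + s)
  have hd : ∀ s ∈ Ici (0 : ℝ), HasDerivAt G (g s) s := by
    intro s hs
    have hs0 : 0 ≤ s := hs
    have hl' : ∀ c d : ℝ, 0 < d → HasDerivAt (fun s => c * Real.log (d + s)) (c / (d + s)) s := by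
      intro c d hd
      have h3 : 0 < d + s := by positivity
      have := (((hasDerivAt_id s).const_add d).log h3.ne').const_mul c
      refine HasDerivAt.congr_deriv this ?_
      simp only [id]; field_simp
    exact (((((hl' x (x + u) (by positivity)).add (hl' z (z + v) (by positivity))).add
      (hl' u u hu)).add (hl' v v hv)).sub (hl' l l hl)).sub (hl' m m hm)
  have hg : ∀ s ∈ Ioi (0 : ℝ), g s = bt x u z v s + bt z v x u s := by
    intro s hs
    have hs0 : 0 < s := hs
    have e : dl x u z v s = (l + s) * (m + s) := by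
      unfold dl; nlinarith
    have e2 : l / (l + s) + m / (m + s)
        = (2 * (x * v + u * z + u * v) + s * (x + z + u + v)) / dl x u z v s := by
      rw [e, ← h1, ← h2]; field_simp; ring
    have h4 := dl_pos hx hu hz hv hs0.le
    have e3 : g s = x / (x + u + s) + z / (z + v + s)
        + u / (u + s) + v / (v + s) - (l / (l + s) + m / (m + s)) := by simp only [g]; ring
    rw [e3, e2]
    simp only [bt, Wt, hs0, if_true, W0, Wf, dl_symm x u z v]
    field_simp
    unfold dl; ring
  have hp : ∀ s ∈ Ioi (0 : ℝ), 0 ≤ g s := by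
    intro s hs
    have hs0 : 0 < s := hs
    rw [hg s hs]
    exact add_nonneg (bt_nonneg hx hu hz hv (by linarith)) (bt_nonneg hz hv hx hu (by linarith))
  have ht : Tendsto G atTop (𝓝 0) := by
    have := ((((((tend_log (x + u)).const_mul x).add ((tend_log (z + v)).const_mul z)).add
      ((tend_log u).const_mul u)).add ((tend_log v).const_mul v)).sub
      ((tend_log l).const_mul l)).sub ((tend_log m).const_mul m)
    simp only [mul_zero, add_zero, sub_zero] at this
    refine this.congr fun s => ?_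
    have h3 : l = x + z + u + v - m := by linarith
    simp only [G]
    linear_combination (Real.log s) * h1
  have hi := integral_Ioi_of_hasDerivAt_of_nonneg' hd hp ht
  have e : l * Real.log l + m * Real.log m - x * Real.log (x + u)
      - z * Real.log (z + v) - u * Real.log u - v * Real.log v = ∫ s in Ioi 0, g s := by
    rw [hi]; simp only [G, add_zero]; ring
  refine ⟨e ▸ setIntegral_nonneg measurableSet_Ioi hp, ?_⟩
  rw [e, ofReal_integral_eq_lintegral_ofReal (integrableOn_Ioi_deriv_of_nonneg' hd hp ht)]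
  · refine setLIntegral_congr_fun measurableSet_Ioi fun s hs => ?_
    simp only [hg s hs]
  · filter_upwards [ae_restrict_mem measurableSet_Ioi] with s hs using hp s hs

lemma S3 {x u z v l m : ℝ} (hx : 0 < x) (hu : 0 < u) (hz : 0 < z) (hv : 0 < v)
    (hl : 0 < l) (hm : 0 < m) (h1 : l + m = x + z + u + v) (h2 : l * m = x * v + u * z + u * v) :
    0 ≤ Real.negMulLog x + Real.negMulLog z + Real.negMulLog u + Real.negMulLog v
        - Real.negMulLog l - Real.negMulLog m ∧
    (∫⁻ s in Ioi (-u), ENNReal.ofReal (bt x u z v s))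
      + ∫⁻ s in Ioi (-v), ENNReal.ofReal (bt z v x u s)
      = ENNReal.ofReal (Real.negMulLog x + Real.negMulLog z + Real.negMulLog u + Real.negMulLog v
        - Real.negMulLog l - Real.negMulLog m) := by
  have hsplit : ∀ {x u z v : ℝ}, 0 < u → ∫⁻ s in Ioi (-u), ENNReal.ofReal (bt x u z v s)
      = (∫⁻ s in Ioc (-u) 0, ENNReal.ofReal (bt x u z v s))
        + ∫⁻ s in Ioi 0, ENNReal.ofReal (bt x u z v s) := by
    intro x u z v hu
    rw [← lintegral_union measurableSet_Ioi (Ioc_disjoint_Ioi le_rfl),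
      Ioc_union_Ioi_eq_Ioi (by linarith)]
  have ha : 0 ≤ x * (Real.log (x + u) - Real.log x) :=
    mul_nonneg hx.le (sub_nonneg.mpr (Real.log_le_log hx (by linarith)))
  have hb : 0 ≤ z * (Real.log (z + v) - Real.log z) :=
    mul_nonneg hz.le (sub_nonneg.mpr (Real.log_le_log hz (by linarith)))
  have hsum : (∫⁻ s in Ioi 0, ENNReal.ofReal (bt x u z v s))
      + ∫⁻ s in Ioi 0, ENNReal.ofReal (bt z v x u s)
      = ∫⁻ s in Ioi 0, ENNReal.ofReal (bt x u z v s + bt z v x u s) := by
    rw [← lintegral_add_left (bt_meas x u z v).ennreal_ofReal]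
    refine setLIntegral_congr_fun measurableSet_Ioi fun s hs => ?_
    have hs0 : 0 < s := hs
    rw [ENNReal.ofReal_add (bt_nonneg hx hu hz hv (by linarith))
      (bt_nonneg hz hv hx hu (by linarith))]
  obtain ⟨hc0, hc⟩ := bt_pos_int hx hu hz hv hl hm h1 h2
  have e : Real.negMulLog x + Real.negMulLog z + Real.negMulLog u + Real.negMulLog v
        - Real.negMulLog l - Real.negMulLog m = x * (Real.log (x + u) - Real.log x)
      + z * (Real.log (z + v) - Real.log z) + (l * Real.log l + m * Real.log m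
        - x * Real.log (x + u) - z * Real.log (z + v) - u * Real.log u - v * Real.log v) := by
    simp only [Real.negMulLog]; ring
  rw [e]
  refine ⟨by positivity, ?_⟩
  rw [hsplit hu, hsplit hv, bt_neg_int hx hu, bt_neg_int hz hv,
    ENNReal.ofReal_add (by positivity) hc0, ENNReal.ofReal_add ha hb, ← hc, ← hsum]
  ring

end Crest.Agent.QEnt
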