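import Mathlib
import Crest.Agent.QEnt.Ent
import Crest.Agent.QEnt.Scalar

/-! The entropic norm-compression inequality for `G Gᴴ + diag (U, V)`. -/

set_option linter.unusedSectionVars false

namespace Crest.Agent.QEnt

open Matrix MeasureTheory Filter Topology Set
open scoped ComplexOrder

variable {n k m : Type*} [Fintype n] [DecidableEq n] [Fintype k] [DecidableEq k]
  [Fintype m] [DecidableEq m]

noncomputable def cr (A : Matrix n n ℂ) (t : ℝ) : ℝ := ∑ i, ind t (ev A i)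

lemma cr_eq (A : Matrix n n ℂ) (t : ℝ) : cr A t = cnt A t := by
  simp [cr, ind, cnt]

lemma cr_nonneg (A : Matrix n n ℂ) (t : ℝ) : 0 ≤ cr A t := by rw [cr_eq]; positivity

noncomputable def fam (X U : Matrix n n ℂ) (x u s : ℝ) : Matrix n n ℂ :=
  (((u + s) / x : ℝ) : ℂ) • X - U

lemma herm_smul {X : Matrix n n ℂ} (hX : X.IsHermitian) (r : ℝ) : ((r : ℂ) • X).IsHermitian := by
  unfold IsHermitian
  rw [conjTranspose_smul, hX.eq]; simp

lemma fam_herm {X U : Matrix n n ℂ} (hX : X.IsHermitian) (hU : U.IsHermitian) (x u s : ℝ) :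
    (fam X U x u s).IsHermitian := (herm_smul hX _).sub hU

lemma fam_mono {X U : Matrix n n ℂ} (hX : X.PosSemidef) (hU : U.IsHermitian) {x : ℝ} (hx : 0 < x)
    (u : ℝ) (i : n) : Monotone fun s => ev (fam X U x u s) i := by
  intro s s' hs
  refine ev_mono (fam_herm hX.1 hU _ _ _) (fam_herm hX.1 hU _ _ _) ?_ i
  have h1 := hX.smul (a := (((u + s') / x - (u + s) / x : ℝ) : ℂ))
    (by exact_mod_cast sub_nonneg.mpr (div_le_div_of_nonneg_right (by linarith) hx.le))
  refine psd_of_eq h1 ?_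
  unfold fam; push_cast; module

lemma cr_meas {X U : Matrix n n ℂ} (hX : X.PosSemidef) (hU : U.IsHermitian) {x : ℝ} (hx : 0 < x)
    (u : ℝ) : Measurable fun p : ℝ × ℝ => cr (fam X U x u p.2) p.1 := by
  unfold cr ind
  refine Finset.measurable_sum _ fun i _ => ?_
  exact Measurable.ite (measurableSet_lt measurable_fst
    ((fam_mono hX hU hx u i).measurable.comp measurable_snd)) measurable_const measurable_const

lemma ind_int (l : ℝ) : IntegrableOn (fun t => ind t l) (Ioi 0) ∧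
    ∫ t in Ioi 0, ind t l = max l 0 := by
  have e : (fun t => ind t l) = (Iio l).indicator (fun _ => (1 : ℝ)) := by
    ext t; by_cases h : t < l <;> simp [ind, h]
  rw [e]
  constructor
  · rw [IntegrableOn, integrable_indicator_iff measurableSet_Iio, IntegrableOn,
      Measure.restrict_restrict measurableSet_Iio, Iio_inter_Ioi]
    exact integrableOn_const (by simp)
  · rw [setIntegral_indicator measurableSet_Iio, Ioi_inter_Iio]
    simp

lemma cr_int (A : Matrix n n ℂ) : IntegrableOn (cr A) (Ioi 0) ∧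
    ∫ t in Ioi 0, cr A t = ∑ i, max (ev A i) 0 := by
  unfold cr
  refine ⟨integrable_finsetSum _ fun i _ => (ind_int _).1, ?_⟩
  rw [integral_finsetSum _ fun i _ => (ind_int _).1]
  exact Finset.sum_congr rfl fun i _ => (ind_int _).2

/-- resolvent form -/
noncomputable def xi (A : Matrix n k ℂ) (U : Matrix n n ℂ) (t : ℝ) : Matrix k k ℂ :=
  Aᴴ * (U + (t : ℂ) • (1 : Matrix n n ℂ))⁻¹ * A

lemma xi_psd (A : Matrix n k ℂ) {U : Matrix n n ℂ} (hU : U.PosSemidef) {t : ℝ} (ht : 0 < t) :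
    (xi A U t).PosSemidef :=
  (shift_posDef hU ht).inv.posSemidef.conjTranspose_mul_mul_same A

lemma cnt_xi (A : Matrix n k ℂ) {U : Matrix n n ℂ} (hU : U.PosSemidef) {t r : ℝ} (ht : 0 < t)
    (hr : 0 < r) : cnt ((r : ℂ) • (A * Aᴴ) - U) t ≤ cnt (xi A U t) r⁻¹ := by
  have hX : (A * Aᴴ).IsHermitian := isHermitian_mul_conjTranspose_self A
  obtain ⟨W, hW⟩ := exists_inertia ((herm_smul hX r).sub hU.1) t
  rw [← card_sub_eq]
  refine inertia (xi_psd A hU ht).1 _ (Aᴴ * W) ?_
  set N := U + (t : ℂ) • (1 : Matrix n n ℂ) with hN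
  have hNp : N.PosDef := shift_posDef hU ht
  have hu : IsUnit N.det := (isUnit_iff_isUnit_det N).mp hNp.isUnit
  have h1 := hNp.inv.posSemidef.conjTranspose_mul_mul_same
    ((A * Aᴴ - ((r⁻¹ : ℝ) : ℂ) • N) * W)
  have h2 := hW.smul (a := ((r⁻¹ * r⁻¹ : ℝ) : ℂ)) (by exact_mod_cast (by positivity))
  have h3 := h2.add_posSemidef h1
  have e0 : (r : ℂ) • (A * Aᴴ) - U - (t : ℂ) • (1 : Matrix n n ℂ) = (r : ℂ) • (A * Aᴴ) - N := by
    rw [hN]; abel
  rw [e0] at h3
  have hr' : (r : ℂ) ≠ 0 := by exact_mod_cast hr.ne'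
  have e : (Aᴴ * W)ᴴ * (xi A U t - ((r⁻¹ : ℝ) : ℂ) • (1 : Matrix k k ℂ)) * (Aᴴ * W)
      = ((r⁻¹ * r⁻¹ : ℝ) : ℂ) • (Wᴴ * ((r : ℂ) • (A * Aᴴ) - N) * W)
        + ((A * Aᴴ - ((r⁻¹ : ℝ) : ℂ) • N) * W)ᴴ * N⁻¹ * ((A * Aᴴ - ((r⁻¹ : ℝ) : ℂ) • N) * W) := by
    have a1 : ∀ B : Matrix n {i // t < ev ((r : ℂ) • (A * Aᴴ) - U) i} ℂ, N⁻¹ * (N * B) = B :=
      fun B => by rw [← Matrix.mul_assoc, nonsing_inv_mul _ hu, Matrix.one_mul]
    have a2 : ∀ B : Matrix n {i // t < ev ((r : ℂ) • (A * Aᴴ) - U) i} ℂ, N * (N⁻¹ * B) = B :=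
      fun B => by rw [← Matrix.mul_assoc, mul_nonsing_inv _ hu, Matrix.one_mul]
    unfold xi
    rw [← hN]
    simp only [conjTranspose_mul, conjTranspose_sub, conjTranspose_smul, conjTranspose_conjTranspose,
      hNp.1.eq, Matrix.sub_mul, Matrix.mul_sub, Matrix.smul_mul, Matrix.mul_smul, Matrix.mul_assoc,
      Matrix.one_mul, a1, a2, smul_sub, smul_smul]
    simp only [Complex.ofReal_inv, Complex.ofReal_mul, star_inv₀, Complex.star_def,
      Complex.conj_ofReal]
    rw [inv_mul_cancel_right₀ hr']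
    abel
  rw [e]; exact h3

section SP

variable (A : Matrix n k ℂ) (U : Matrix n n ℂ) (x u : ℝ) (W : ℝ → ℝ)

noncomputable def HH (t s : ℝ) : ℝ :=
  W0 x u s * cr (fam (A * Aᴴ) 0 x u s) t - W s * cr (fam (A * Aᴴ) U x u s) t

variable {A U x u W}

lemma cr_fam_le (hU : U.PosSemidef) (t s : ℝ) :
    cr (fam (A * Aᴴ) U x u s) t ≤ cr (fam (A * Aᴴ) 0 x u s) t := by
  have hX : (A * Aᴴ).IsHermitian := isHermitian_mul_conjTranspose_self A
  rw [cr_eq, cr_eq]
  exact_mod_cast cnt_mono (fam_herm hX hU.1 _ _ _) (fam_herm hX isHermitian_zero _ _ _)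
    (by simpa [fam] using hU) t

lemma HH_nonneg (hU : U.PosSemidef) (hW0 : ∀ s, 0 ≤ W s) {s : ℝ} (hW : W s ≤ W0 x u s) (t : ℝ) :
    0 ≤ HH A U x u W t s :=
  sub_nonneg.mpr (mul_le_mul hW (cr_fam_le hU t s) (cr_nonneg _ _) ((hW0 s).trans hW))

lemma HH_meas (hU : U.PosSemidef) (hx : 0 < x) (hWm : Measurable W) :
    Measurable fun p : ℝ × ℝ => HH A U x u W p.1 p.2 := by
  have hX : (A * Aᴴ).PosSemidef := posSemidef_self_mul_conjTranspose A
  exact (((W0_meas x u).comp measurable_snd).mul (cr_meas hX isHermitian_zero hx u)).sub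
    ((hWm.comp measurable_snd).mul (cr_meas hX hU.1 hx u))

lemma cr_fam_zero {X : Matrix n n ℂ} (hX : X.IsHermitian) {t : ℝ} (ht : 0 < t) (s : ℝ) :
    cr (fam X 0 x u s) t = ∑ i, ind 1 (ev X i / t * ((u + s) / x)) := by
  have := sum_ev_affine hX ((u + s) / x) 0 (fun y => ind t y)
  simp only [Complex.ofReal_zero, zero_smul, add_zero] at this
  unfold cr fam
  rw [sub_zero, this]
  refine Finset.sum_congr rfl fun i _ => ?_
  unfold ind
  congr 1
  rw [div_mul_eq_mul_div (ev X i), lt_div_iff₀ ht, one_mul, mul_comm]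

lemma SP1 (hU : U.PosSemidef) (hx : 0 < x) (hWm : Measurable W) (hW0 : ∀ s, 0 ≤ W s)
    (hW : ∀ s, -u < s → W s ≤ W0 x u s) {t : ℝ} (ht : 0 < t) :
    ENNReal.ofReal (El (A * Aᴴ) t - ∑ j, kap x u W (ev (xi A U t) j))
      ≤ ∫⁻ s in Ioi (-u), ENNReal.ofReal (HH A U x u W t s) := by
  have hX : (A * Aᴴ).PosSemidef := posSemidef_self_mul_conjTranspose A
  have hl : ∀ i, 0 ≤ ev (A * Aᴴ) i / t := fun i => div_nonneg (ev_nonneg hX i) ht.le
  have i1 : IntegrableOn (fun s => W0 x u s * cr (fam (A * Aᴴ) 0 x u s) t) (Ioi (-u)) := by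
    simp only [cr_fam_zero hX.1 ht, Finset.mul_sum]
    exact integrable_finsetSum _ fun i _ => S1_int hx (hl i)
  have e1 : El (A * Aᴴ) t = ∫ s in Ioi (-u), W0 x u s * cr (fam (A * Aᴴ) 0 x u s) t := by
    simp only [cr_fam_zero hX.1 ht, Finset.mul_sum]
    rw [integral_finsetSum _ fun i _ => S1_int hx (hl i)]
    refine Finset.sum_congr rfl fun i _ => ?_
    have := S1 (u := u) hx (hl i)
    unfold kap at this
    rw [this, ← Real.log_div (by have := ev_nonneg hX i; positivity) ht.ne']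
    congr 1; field_simp; ring
  have i2 : IntegrableOn (fun s => W s * cr (fam (A * Aᴴ) U x u s) t) (Ioi (-u)) := by
    refine Integrable.mono' i1 (hWm.mul ((cr_meas hX hU.1 hx u).comp
      (measurable_const.prodMk measurable_id))).aestronglyMeasurable ?_
    filter_upwards [ae_restrict_mem measurableSet_Ioi] with s hs
    rw [Real.norm_of_nonneg (mul_nonneg (hW0 s) (cr_nonneg _ _))]
    exact sub_nonneg.mp (HH_nonneg hU hW0 (hW s hs) t)
  have i3 : ∀ j, IntegrableOn (fun s => W s * ind 1 (ev (xi A U t) j * ((u + s) / x)))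
      (Ioi (-u)) := by
    intro j
    refine Integrable.mono' (S1_int (u := u) hx (ev_nonneg (xi_psd A hU ht) j))
      (hWm.mul ?_).aestronglyMeasurable ?_
    · unfold ind
      exact Measurable.ite (measurableSet_lt measurable_const (by fun_prop)) measurable_const
        measurable_const
    · filter_upwards [ae_restrict_mem measurableSet_Ioi] with s hs
      rw [Real.norm_of_nonneg (mul_nonneg (hW0 s) (ind_nonneg _ _))]
      exact mul_le_mul_of_nonneg_right (hW s hs) (ind_nonneg _ _)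
  have e2 : ∫ s in Ioi (-u), W s * cr (fam (A * Aᴴ) U x u s) t
      ≤ ∑ j, kap x u W (ev (xi A U t) j) := by
    unfold kap
    rw [← integral_finsetSum _ fun j _ => i3 j]
    refine setIntegral_mono_on i2 (integrable_finsetSum _ fun j _ => i3 j) measurableSet_Ioi
      fun s hs => ?_
    rw [← Finset.mul_sum]
    refine mul_le_mul_of_nonneg_left ?_ (hW0 s)
    have hr : 0 < (u + s) / x := div_pos (by simp only [mem_Ioi] at hs; linarith) hx
    have h1 := cnt_xi A hU ht hr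
    have h2 : cr (xi A U t) ((u + s) / x)⁻¹ = ∑ j, ind 1 (ev (xi A U t) j * ((u + s) / x)) := by
      unfold cr
      refine Finset.sum_congr rfl fun j _ => ?_
      unfold ind
      congr 1
      rw [inv_lt_iff_one_lt_mul₀ hr]
    rw [← h2, cr_eq, cr_eq]
    exact_mod_cast h1
  rw [← ofReal_integral_eq_lintegral_ofReal (f := fun s => HH A U x u W t s) (i1.sub i2)]
  · refine ENNReal.ofReal_le_ofReal ?_
    unfold HH
    rw [integral_sub i1 i2]
    linarith
  · filter_upwards [ae_restrict_mem measurableSet_Ioi] with s hs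
    exact HH_nonneg hU hW0 (hW s hs) t

lemma SP2 (hU : U.PosSemidef) (hx : 0 < x) (hWm : Measurable W) (hW0 : ∀ s, 0 ≤ W s)
    (hW : ∀ s, -u < s → W s ≤ W0 x u s) (hxx : tr (A * Aᴴ) ≤ x) (huu : tr U ≤ u) :
    ∫⁻ t in Ioi 0, ∫⁻ s in Ioi (-u), ENNReal.ofReal (HH A U x u W t s)
      ≤ ∫⁻ s in Ioi (-u), ENNReal.ofReal ((W0 x u s - W s) * ((u + s) / x) * x + W s * u) := by
  have hX : (A * Aᴴ).PosSemidef := posSemidef_self_mul_conjTranspose A
  rw [lintegral_lintegral_swap (HH_meas hU hx hWm).ennreal_ofReal.aemeasurable]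
  refine setLIntegral_mono' measurableSet_Ioi fun s hs => ?_
  have hr : 0 < (u + s) / x := div_pos (by simp only [mem_Ioi] at hs; linarith) hx
  have i1 := ((cr_int (fam (A * Aᴴ) 0 x u s)).1).const_mul (W0 x u s)
  have i2 := ((cr_int (fam (A * Aᴴ) U x u s)).1).const_mul (W s)
  rw [← ofReal_integral_eq_lintegral_ofReal (f := fun t => HH A U x u W t s) (i1.sub i2)
    (Eventually.of_forall fun t => HH_nonneg hU hW0 (hW s hs) t)]
  refine ENNReal.ofReal_le_ofReal ?_
  unfold HH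
  rw [integral_sub i1 i2, integral_const_mul, integral_const_mul, (cr_int _).2, (cr_int _).2]
  have h1 : ∑ i, max (ev (fam (A * Aᴴ) 0 x u s) i) 0 = (u + s) / x * tr (A * Aᴴ) := by
    have hp : (fam (A * Aᴴ) 0 x u s).PosSemidef := by
      unfold fam; rw [sub_zero]; exact hX.smul (by exact_mod_cast hr.le)
    rw [Finset.sum_congr rfl fun i _ => max_eq_left (ev_nonneg hp i), sum_ev hp.1, ← tr_smul]
    simp [fam, tr]
  have h2 : (u + s) / x * tr (A * Aᴴ) - tr U ≤ ∑ i, max (ev (fam (A * Aᴴ) U x u s) i) 0 := by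
    refine le_trans (le_of_eq ?_) (Finset.sum_le_sum fun i _ => le_max_left _ _)
    rw [sum_ev (fam_herm hX.1 hU.1 _ _ _), ← tr_smul]
    simp [fam, tr, trace_sub]
  rw [h1]
  have h3 := mul_le_mul_of_nonneg_left h2 (hW0 s)
  have h4 := mul_le_mul_of_nonneg_left hxx
    (mul_nonneg (sub_nonneg.mpr (hW s hs)) hr.le)
  have h5 := mul_le_mul_of_nonneg_left huu (hW0 s)
  nlinarith

end SP

lemma El_block (A : Matrix n k ℂ) (B : Matrix m k ℂ) {U : Matrix n n ℂ} {V : Matrix m m ℂ}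
    (hU : U.PosSemidef) (hV : V.PosSemidef) {t : ℝ} (ht : 0 < t) :
    El (fromRows A B * (fromRows A B)ᴴ + fromBlocks U 0 0 V) t
      = El U t + El V t + LD (1 + xi A U t + xi B V t) := by
  have hUV : (fromBlocks U 0 0 V).PosSemidef := by
    rw [← rt_mul_star hU, ← rt_mul_star hV]
    have := posSemidef_self_mul_conjTranspose (fromBlocks (rt U) 0 0 (rt V))
    rw [fromBlocks_conjTranspose, fromBlocks_multiply] at this
    simpa using this
  have hρ := (posSemidef_self_mul_conjTranspose (fromRows A B)).add hUV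
  have hN := shift_posDef hUV ht
  have hU' := shift_posDef hU ht
  have hV' := shift_posDef hV ht
  rw [El_eq hρ ht, El_eq hU ht, El_eq hV ht, add_assoc, add_comm (fromRows A B * _),
    LD_add_gram hN, fromBlocks_shift]
  have e1 : LD (fromBlocks (U + (t : ℂ) • 1) 0 0 (V + (t : ℂ) • 1))
      = LD (U + (t : ℂ) • 1) + LD (V + (t : ℂ) • 1) := by
    unfold LD
    rw [det_fromBlocks_zero₂₁, norm_mul, Real.log_mul (norm_ne_zero_iff.mpr hU'.det_pos.ne')
      (norm_ne_zero_iff.mpr hV'.det_pos.ne')]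
  have e2 : (fromBlocks (U + (t : ℂ) • 1) 0 0 (V + (t : ℂ) • 1))⁻¹
      = fromBlocks (U + (t : ℂ) • 1)⁻¹ 0 0 (V + (t : ℂ) • 1)⁻¹ := by
    refine inv_eq_left_inv ?_
    rw [fromBlocks_multiply, nonsing_inv_mul _ ((isUnit_iff_isUnit_det _).mp hU'.isUnit),
      nonsing_inv_mul _ ((isUnit_iff_isUnit_det _).mp hV'.isUnit)]
    simp
  rw [e1, e2, conjTranspose_fromRows_eq_fromCols_conjTranspose, fromCols_mul_fromBlocks,
    fromCols_mul_fromRows]
  simp only [Matrix.mul_zero, add_zero, zero_add, Fintype.card_sum, Nat.cast_add, xi, add_assoc]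
  ring

lemma KL0 (A : Matrix n k ℂ) (B : Matrix m k ℂ) {U : Matrix n n ℂ} {V : Matrix m m ℂ}
    (hU : U.PosSemidef) (hV : V.PosSemidef) {x u z v l l' : ℝ}
    (hx : 0 < x) (hu : 0 < u) (hz : 0 < z) (hv : 0 < v)
    (hl : 0 < l) (hl' : 0 < l') (h1 : l + l' = x + z + u + v) (h2 : l * l' = x * v + u * z + u * v)
    (hxx : tr (A * Aᴴ) ≤ x) (huu : tr U ≤ u) (hzz : tr (B * Bᴴ) ≤ z) (hvv : tr V ≤ v) :
    Sn (A * Aᴴ) + Sn (B * Bᴴ) + Sn U + Sn V
        - Sn (fromRows A B * (fromRows A B)ᴴ + fromBlocks U 0 0 V)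
      ≤ Real.negMulLog x + Real.negMulLog z + Real.negMulLog u + Real.negMulLog v
        - Real.negMulLog l - Real.negMulLog l' := by
  set ρ := fromRows A B * (fromRows A B)ᴴ + fromBlocks U 0 0 V with hρ
  have hX : (A * Aᴴ).PosSemidef := posSemidef_self_mul_conjTranspose A
  have hZ : (B * Bᴴ).PosSemidef := posSemidef_self_mul_conjTranspose B
  have hρh : ρ.IsHermitian := (isHermitian_mul_conjTranspose_self _).add
    (IsHermitian.fromBlocks hU.1 (by simp) hV.1)
  have htr : tr ρ = tr (A * Aᴴ) + tr (B * Bᴴ) + tr U + tr V := by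
    rw [hρ, tr_add, conjTranspose_fromRows_eq_fromCols_conjTranspose, fromRows_mul_fromCols,
      tr_fromBlocks, tr_fromBlocks]; ring
  obtain ⟨hΘ, hS3⟩ := S3 hx hu hz hv hl hl' h1 h2
  refine le_of_tendsto (((((tend_El hX.1).add (tend_El hZ.1)).add (tend_El hU.1)).add
    (tend_El hV.1)).sub (tend_El hρh)) ?_
  filter_upwards [eventually_gt_atTop 0] with R hR
  let D : ℝ → ℝ := fun t => El (A * Aᴴ) t + El (B * Bᴴ) t + El U t + El V t - El ρ t
  have hDi : IntervalIntegrable D volume 0 R :=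
    ((((El_ii _ _ _).add (El_ii _ _ _)).add (El_ii _ _ _)).add (El_ii _ _ _)).sub (El_ii _ _ _)
  have hDe : ∫ t in (0 : ℝ)..R, D t = (∫ t in (0 : ℝ)..R, El (A * Aᴴ) t)
      + (∫ t in (0 : ℝ)..R, El (B * Bᴴ) t) + (∫ t in (0 : ℝ)..R, El U t)
      + (∫ t in (0 : ℝ)..R, El V t) - ∫ t in (0 : ℝ)..R, El ρ t := by
    simp only [D]
    rw [intervalIntegral.integral_sub ((((El_ii _ _ _).add (El_ii _ _ _)).add (El_ii _ _ _)).add
      (El_ii _ _ _)) (El_ii _ _ _),
      intervalIntegral.integral_add (((El_ii _ _ _).add (El_ii _ _ _)).add (El_ii _ _ _))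
      (El_ii _ _ _), intervalIntegral.integral_add ((El_ii _ _ _).add (El_ii _ _ _)) (El_ii _ _ _),
      intervalIntegral.integral_add (El_ii _ _ _) (El_ii _ _ _)]
  have hpt : ∀ t, 0 < t → ENNReal.ofReal (D t)
      ≤ (∫⁻ s in Ioi (-u), ENNReal.ofReal (HH A U x u (Wt x u z v) t s))
        + ∫⁻ s in Ioi (-v), ENNReal.ofReal (HH B V z v (Wt z v x u) t s) := by
    intro t ht
    refine le_trans ?_ (add_le_add
      (SP1 hU hx (Wt_meas x u z v) (Wt_nonneg hx hu hz hv) (fun s hs => Wt_le hx hu hz hv hs) ht)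
      (SP1 hV hz (Wt_meas z v x u) (Wt_nonneg hz hv hx hu) (fun s hs => Wt_le hz hv hx hu hs) ht))
    refine le_trans (ENNReal.ofReal_le_ofReal ?_) ENNReal.ofReal_add_le
    have h3 := fiedler (xi_psd A hU ht) (xi_psd B hV ht)
    have h4 : ∑ j, (kap x u (Wt x u z v) (ev (xi A U t) j)
        + kap z v (Wt z v x u) (ev (xi B V t) j))
        ≤ ∑ j, Real.log (1 + ev (xi A U t) j + ev (xi B V t) j) :=
      Finset.sum_le_sum fun j _ => S2 hx hu hz hv (ev_nonneg (xi_psd A hU ht) j)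
        (ev_nonneg (xi_psd B hV ht) j)
    rw [Finset.sum_add_distrib] at h4
    simp only [D, hρ, El_block A B hU hV ht]
    linarith
  have hmain : ∫⁻ t in Ioc 0 R, ENNReal.ofReal (D t) ≤ ENNReal.ofReal (Real.negMulLog x
      + Real.negMulLog z + Real.negMulLog u + Real.negMulLog v
      - Real.negMulLog l - Real.negMulLog l') := by
    rw [← hS3]
    refine (lintegral_mono_set Ioc_subset_Ioi_self).trans ?_
    refine (setLIntegral_mono' measurableSet_Ioi fun t ht => hpt t ht).trans ?_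
    rw [lintegral_add_left]
    · exact add_le_add
        (SP2 hU hx (Wt_meas x u z v) (Wt_nonneg hx hu hz hv) (fun s hs => Wt_le hx hu hz hv hs)
          hxx huu)
        (SP2 hV hz (Wt_meas z v x u) (Wt_nonneg hz hv hx hu) (fun s hs => Wt_le hz hv hx hu hs)
          hzz hvv)
    · exact (HH_meas hU hx (Wt_meas x u z v)).ennreal_ofReal.lintegral_prod_right'
  have hfin : ∫ t in (0 : ℝ)..R, D t ≤ Real.negMulLog x
      + Real.negMulLog z + Real.negMulLog u + Real.negMulLog v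
      - Real.negMulLog l - Real.negMulLog l' := by
    rw [intervalIntegral.integral_of_le hR.le, integral_eq_lintegral_pos_part_sub_lintegral_neg_part
      ((intervalIntegrable_iff_integrableOn_Ioc_of_le hR.le).mp hDi)]
    have := ENNReal.toReal_le_of_le_ofReal hΘ hmain
    linarith [ENNReal.toReal_nonneg (a := ∫⁻ t in Ioc 0 R, ENNReal.ofReal (-D t))]
  rw [hDe] at hfin
  rw [htr]
  linarith

/-- entropy of a `2 × 2` matrix with trace `τ` and determinant `δ` -/
noncomputable def Phi (τ δ : ℝ) : ℝ :=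
  Real.negMulLog ((τ + Real.sqrt (τ ^ 2 - 4 * δ)) / 2)
    + Real.negMulLog ((τ - Real.sqrt (τ ^ 2 - 4 * δ)) / 2)

theorem KL (A : Matrix n k ℂ) (B : Matrix m k ℂ) {U : Matrix n n ℂ} {V : Matrix m m ℂ}
    (hU : U.PosSemidef) (hV : V.PosSemidef) {x u z v : ℝ}
    (hxx : tr (A * Aᴴ) = x) (huu : tr U = u) (hzz : tr (B * Bᴴ) = z) (hvv : tr V = v) :
    Sn (A * Aᴴ) + Sn (B * Bᴴ) + Sn U + Sn V
        - Sn (fromRows A B * (fromRows A B)ᴴ + fromBlocks U 0 0 V)
      ≤ Real.negMulLog x + Real.negMulLog z + Real.negMulLog u + Real.negMulLog v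
        - Phi (x + z + u + v) (x * v + u * z + u * v) := by
  have hx : 0 ≤ x := hxx ▸ tr_nonneg (posSemidef_self_mul_conjTranspose A)
  have hz : 0 ≤ z := hzz ▸ tr_nonneg (posSemidef_self_mul_conjTranspose B)
  have hu : 0 ≤ u := huu ▸ tr_nonneg hU
  have hv : 0 ≤ v := hvv ▸ tr_nonneg hV
  let F : ℝ → ℝ := fun e => Real.negMulLog (x + e) + Real.negMulLog (z + e)
    + Real.negMulLog (u + e) + Real.negMulLog (v + e)
    - Phi ((x + e) + (z + e) + (u + e) + (v + e))
      ((x + e) * (v + e) + (u + e) * (z + e) + (u + e) * (v + e))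
  have hF : Continuous F := by
    unfold F Phi
    have := Real.continuous_negMulLog
    fun_prop
  have h1 : Tendsto F (𝓝[>] 0) (𝓝 (F 0)) := hF.continuousAt.tendsto.mono_left nhdsWithin_le_nhds
  have e0 : F 0 = Real.negMulLog x + Real.negMulLog z + Real.negMulLog u + Real.negMulLog v
        - Phi (x + z + u + v) (x * v + u * z + u * v) := by simp [F]
  rw [← e0]
  refine ge_of_tendsto h1 ?_
  filter_upwards [self_mem_nhdsWithin] with e he
  have he0 : 0 < e := he
  set x' := x + e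
  set z' := z + e
  set u' := u + e
  set v' := v + e
  have hx' : 0 < x' := by positivity
  have hz' : 0 < z' := by positivity
  have hu' : 0 < u' := by positivity
  have hv' : 0 < v' := by positivity
  set τ := x' + z' + u' + v' with hτ
  set δ := x' * v' + u' * z' + u' * v' with hδ
  have hδ0 : 0 < δ := by positivity
  have hτ0 : 0 < τ := by positivity
  have hdisc : 0 ≤ τ ^ 2 - 4 * δ := by
    have : τ ^ 2 - 4 * δ = (x' + u' - z' - v') ^ 2 + 4 * x' * z' := by rw [hτ, hδ]; ring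
    rw [this]; positivity
  have hs := Real.sq_sqrt hdisc
  have hs0 := Real.sqrt_nonneg (τ ^ 2 - 4 * δ)
  have hs1 : Real.sqrt (τ ^ 2 - 4 * δ) < τ := by
    rw [Real.sqrt_lt' hτ0]; linarith
  have := KL0 A B hU hV hx' hu' hz' hv' (l := (τ + Real.sqrt (τ ^ 2 - 4 * δ)) / 2)
    (l' := (τ - Real.sqrt (τ ^ 2 - 4 * δ)) / 2) (by positivity) (by linarith) (by ring)
    (by nlinarith) (by simp only [x']; linarith) (by simp only [u']; linarith)
    (by simp only [z']; linarith) (by simp only [v']; linarith)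
  simp only [F, Phi]
  linarith

end Crest.Agent.QEnt
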