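import Mathlib

/-! Convexity of the Wootters function and of the pure-state output entropy of the
generalized amplitude-damping channel. -/

namespace Crest.Agent.QEnt

open Set

noncomputable def WE (C : ℝ) : ℝ := Real.binEntropy ((1 + Real.sqrt (1 - C ^ 2)) / 2)

lemma WE_mono : MonotoneOn WE (Icc 0 1) := by
  intro a ha b hb hab
  have h1 : Real.sqrt (1 - b ^ 2) ≤ Real.sqrt (1 - a ^ 2) :=
    Real.sqrt_le_sqrt (by nlinarith [ha.1])
  have h2 : ∀ c : ℝ, (1 + Real.sqrt (1 - c ^ 2)) / 2 ∈ Icc (2⁻¹ : ℝ) 1 := by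
    intro c
    have := Real.sqrt_nonneg (1 - c ^ 2)
    have h3 : Real.sqrt (1 - c ^ 2) ≤ 1 := Real.sqrt_le_one.mpr (by nlinarith [sq_nonneg c])
    constructor <;> linarith
  exact Real.binEntropy_strictAntiOn.antitoneOn (h2 b) (h2 a) (by linarith)

lemma WE_convex : ConvexOn ℝ (Icc 0 1) WE := by
  let r : ℝ → ℝ := fun C => Real.sqrt (1 - C ^ 2)
  let L : ℝ → ℝ := fun C => Real.log (1 + r C) - Real.log (1 - r C)
  have hr : ∀ C ∈ Ioo (0 : ℝ) 1, 0 < r C ∧ r C < 1 ∧ r C ^ 2 = 1 - C ^ 2 ∧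
      HasDerivAt r (-C / r C) C := by
    intro C hC
    have h1 : 0 < 1 - C ^ 2 := by nlinarith [hC.1, hC.2]
    have h2 : 0 < r C := Real.sqrt_pos.mpr h1
    have h3 : r C ^ 2 = 1 - C ^ 2 := Real.sq_sqrt h1.le
    refine ⟨h2, by nlinarith [hC.1], h3, ?_⟩
    have := ((hasDerivAt_pow 2 C).const_sub 1).sqrt h1.ne'
    refine HasDerivAt.congr_deriv this ?_
    simp only [r] at h2 ⊢
    field_simp
    norm_num
  refine convexOn_of_hasDerivWithinAt2_nonneg (convex_Icc 0 1)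
    (f' := fun C => C * L C / (2 * r C)) (f'' := fun C => (L C / (2 * r C) - 1) / r C ^ 2)
    ?_ ?_ ?_ ?_
  · unfold WE
    exact (Real.binEntropy_continuous.comp (by fun_prop)).continuousOn
  · rw [interior_Icc]
    intro C hC
    obtain ⟨h0, h1, _, h3⟩ := hr C hC
    have h4 := (Real.hasDerivAt_binEntropy (p := (1 + r C) / 2) (by linarith) (by linarith)).comp C
      ((h3.const_add 1).div_const 2)
    refine (HasDerivAt.congr_deriv h4 ?_).hasDerivWithinAt
    have e1 : 1 - (1 + r C) / 2 = (1 - r C) / 2 := by ring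
    rw [e1, Real.log_div (by linarith) two_ne_zero, Real.log_div (by linarith) two_ne_zero]
    simp only [L]
    field_simp; ring
  · rw [interior_Icc]
    intro C hC
    obtain ⟨h0, h1, h2, h3⟩ := hr C hC
    have hL : HasDerivAt L (-C / r C / (1 + r C) - -(-C / r C) / (1 - r C)) C :=
      ((h3.const_add 1).log (by linarith)).sub ((h3.const_sub 1).log (by linarith))
    have h4 := ((hasDerivAt_id C).mul hL).div (h3.const_mul 2) (by linarith)
    refine (HasDerivAt.congr_deriv h4 ?_).hasDerivWithinAt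
    have h5 : 1 + r C ≠ 0 := by linarith
    have h6 : 1 - r C ≠ 0 := by linarith
    have h7 : C ^ 2 = 1 - r C ^ 2 := by linarith
    simp only [id, Pi.mul_apply]
    field_simp
    rw [h7]; ring
  · rw [interior_Icc]
    intro C hC
    obtain ⟨h0, h1, _, _⟩ := hr C hC
    refine div_nonneg ?_ (sq_nonneg _)
    rw [sub_nonneg, le_div_iff₀ (by linarith)]
    have h6 : 0 < 1 - r C := by linarith
    have h4 := Real.le_log_one_add_of_nonneg (x := 2 * r C / (1 - r C)) (by positivity)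
    have e1 : 1 + 2 * r C / (1 - r C) = (1 + r C) / (1 - r C) := by field_simp; ring
    have e2 : 2 * (2 * r C / (1 - r C)) / (2 * r C / (1 - r C) + 2) = 1 * (2 * r C) := by
      field_simp; ring
    rw [e1, e2, Real.log_div (by linarith) h6.ne'] at h4
    exact h4

/-- determinant of the output of a pure state with population `p` -/
noncomputable def vv (γ ν p : ℝ) : ℝ := γ * ν * (1 - ν) + γ * (1 - γ) * (p - ν) ^ 2

/-- its entropy -/
noncomputable def ff (γ ν p : ℝ) : ℝ :=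
  Real.binEntropy ((1 + Real.sqrt (1 - 4 * vv γ ν p)) / 2)

lemma ff_convex {γ ν : ℝ} (hγ : γ ∈ Icc (0 : ℝ) 1) (hν : ν ∈ Icc (0 : ℝ) 1) :
    ConvexOn ℝ (Icc 0 1) (ff γ ν) := by
  have ha : 0 ≤ γ * ν * (1 - ν) := mul_nonneg (mul_nonneg hγ.1 hν.1) (by linarith [hν.2])
  have hb : 0 ≤ γ * (1 - γ) := mul_nonneg hγ.1 (by linarith [hγ.2])
  let z : ℝ → ℂ := fun p => ⟨2 * Real.sqrt (γ * ν * (1 - ν)), 2 * Real.sqrt (γ * (1 - γ)) * (p - ν)⟩
  have hz : ∀ p, ‖z p‖ ^ 2 = 4 * vv γ ν p := by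
    intro p
    rw [Complex.sq_norm, Complex.normSq_mk]
    have h1 := Real.mul_self_sqrt ha
    have h2 := Real.mul_self_sqrt hb
    unfold vv
    linear_combination 4 * h1 + 4 * (p - ν) ^ 2 * h2
  have hf : ∀ p, ff γ ν p = WE ‖z p‖ := by
    intro p; unfold ff WE; rw [hz]
  have hmem : ∀ p ∈ Icc (0 : ℝ) 1, ‖z p‖ ∈ Icc (0 : ℝ) 1 := by
    intro p hp
    refine ⟨norm_nonneg _, ?_⟩
    have h1 : ‖z p‖ ^ 2 ≤ 1 := by
      rw [hz]
      have h2 : 0 ≤ (1 - γ) * (p * (1 - p)) :=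
        mul_nonneg (by linarith [hγ.2]) (mul_nonneg hp.1 (by linarith [hp.2]))
      have e : 1 - 4 * vv γ ν p = (1 - 2 * (γ * ν + (1 - γ) * p)) ^ 2
          + 4 * ((1 - γ) * (p * (1 - p))) := by unfold vv; ring
      nlinarith [sq_nonneg (1 - 2 * (γ * ν + (1 - γ) * p))]
    nlinarith [norm_nonneg (z p)]
  refine ⟨convex_Icc 0 1, ?_⟩
  intro p hp q hq a b ha0 hb0 hab
  have hpq : a • p + b • q ∈ Icc (0 : ℝ) 1 := convex_Icc 0 1 hp hq ha0 hb0 hab
  have e : z (a • p + b • q) = a • z p + b • z q := by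
    apply Complex.ext
    · simp only [z, Complex.add_re, Complex.smul_re, smul_eq_mul]
      linear_combination (-2 * Real.sqrt (γ * ν * (1 - ν))) * hab
    · simp only [z, Complex.add_im, Complex.smul_im, smul_eq_mul]
      linear_combination (2 * Real.sqrt (γ * (1 - γ)) * ν) * hab
  have h1 : ‖z (a • p + b • q)‖ ≤ a • ‖z p‖ + b • ‖z q‖ := by
    rw [e]
    refine (norm_add_le _ _).trans ?_
    rw [norm_smul, norm_smul, Real.norm_of_nonneg ha0, Real.norm_of_nonneg hb0]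
    simp
  rw [hf, hf, hf]
  exact (WE_mono (hmem _ hpq) (convex_Icc 0 1 (hmem p hp) (hmem q hq) ha0 hb0 hab) h1).trans
    (WE_convex.2 (hmem p hp) (hmem q hq) ha0 hb0 hab)

end Crest.Agent.QEnt
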