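import Mathlib
import Crest.Agent.QEnt.KL
import Crest.Agent.QEnt.Woot

/-! Concavity of the normalised entropy and the main output-entropy inequality for the
generalized amplitude-damping channel tensored with the identity. -/

set_option linter.unusedSectionVars false

namespace Crest.Agent.QEnt

open Matrix Set
open scoped ComplexOrder

variable {n k : Type*} [Fintype n] [DecidableEq n] [Fintype k] [DecidableEq k]

/-- homogeneous entropy `tr A * S (A / tr A)` -/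
noncomputable def sig (A : Matrix n n ℂ) : ℝ := Sn A - Real.negMulLog (tr A)

lemma sig_smul {A : Matrix n n ℂ} (h : A.IsHermitian) (c : ℝ) :
    sig ((c : ℂ) • A) = c * sig A := by
  unfold sig
  rw [Sn_smul h, tr_smul, Real.negMulLog_mul]; ring

lemma tr_zero : tr (0 : Matrix n n ℂ) = 0 := by simp [tr]

lemma sig_concave {P Q : Matrix n n ℂ} (hP : P.PosSemidef) (hQ : Q.PosSemidef) :
    sig P + sig Q ≤ sig (P + Q) := by
  have h := KL (rt P) (0 : Matrix n n ℂ) (U := Q) (V := (0 : Matrix n n ℂ)) hQ PosSemidef.zero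
    (x := tr P) (u := tr Q) (z := 0) (v := 0) (by rw [rt_mul_star hP]) rfl (by simp [tr]) tr_zero
  have e : fromRows (rt P) (0 : Matrix n n ℂ) * (fromRows (rt P) (0 : Matrix n n ℂ))ᴴ
      + fromBlocks Q 0 0 (0 : Matrix n n ℂ) = fromBlocks (P + Q) 0 0 0 := by
    rw [conjTranspose_fromRows_eq_fromCols_conjTranspose, fromRows_mul_fromCols, rt_mul_star hP,
      fromBlocks_add]
    simp
  have hpsd : (fromBlocks (P + Q) 0 0 (0 : Matrix n n ℂ)).PosSemidef := by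
    have := posSemidef_self_mul_conjTranspose (fromRows (rt (P + Q)) (0 : Matrix n n ℂ))
    rw [conjTranspose_fromRows_eq_fromCols_conjTranspose, fromRows_mul_fromCols,
      rt_mul_star (hP.add hQ)] at this
    simpa using this
  have h2 := Sn_pinch hpsd
  rw [e, rt_mul_star hP] at h
  have h3 : Phi (tr P + 0 + tr Q + 0) (tr P * 0 + tr Q * 0 + tr Q * 0)
      = Real.negMulLog (tr P + tr Q) := by
    have := add_nonneg (tr_nonneg hP) (tr_nonneg hQ)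
    simp [Phi, Real.sqrt_sq this]
  rw [h3] at h
  simp only [Matrix.zero_mul, Sn_zero, Real.negMulLog_zero] at h h2
  unfold sig
  rw [tr_add]
  linarith

lemma psd_smul {A : Matrix n n ℂ} (h : A.PosSemidef) {c : ℝ} (hc : 0 ≤ c) :
    ((c : ℂ) • A).PosSemidef := h.smul (by exact_mod_cast hc)

lemma sig_comb {P Q : Matrix n n ℂ} (hP : P.PosSemidef) (hQ : Q.PosSemidef) {a b : ℝ}
    (ha : 0 ≤ a) (hb : 0 ≤ b) : a * sig P + b * sig Q ≤ sig ((a : ℂ) • P + (b : ℂ) • Q) := by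
  rw [← sig_smul hP.1, ← sig_smul hQ.1]
  exact sig_concave (psd_smul hP ha) (psd_smul hQ hb)

lemma Phi_one (δ : ℝ) : Phi 1 δ = Real.binEntropy ((1 + Real.sqrt (1 - 4 * δ)) / 2) := by
  rw [Real.binEntropy_eq_negMulLog_add_negMulLog_one_sub, Phi]
  simp only [one_pow]
  congr 2; ring

lemma exists_split {γ ν : ℝ} (hγ : γ ∈ Icc (0 : ℝ) 1) (hν : ν ∈ Icc (0 : ℝ) 1) :
    ∃ β : ℝ, 0 ≤ β ∧ β ≤ 1 - γ + γ * ν ∧ (1 - γ * ν) * β = 1 - γ := by
  have h1 : γ * ν ≤ γ := mul_le_of_le_one_right hγ.1 hν.2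
  have h0 : 0 ≤ γ * ν := mul_nonneg hγ.1 hν.1
  rcases eq_or_lt_of_le (h1.trans hγ.2) with h | h
  · refine ⟨0, le_rfl, by linarith [hγ.2], ?_⟩
    have : γ = 1 := le_antisymm hγ.2 (by linarith)
    rw [this]; ring
  · have h2 : 0 < 1 - γ * ν := by linarith
    refine ⟨(1 - γ) / (1 - γ * ν), div_nonneg (by linarith [hγ.2]) h2.le, ?_, by field_simp⟩
    rw [div_le_iff₀ h2]
    have : 0 ≤ γ * (γ * ν) * (1 - ν) := mul_nonneg (mul_nonneg hγ.1 h0) (by linarith [hν.2])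
    nlinarith

/-- the channel acting on the block structure -/
noncomputable def outS (γ ν : ℝ) (X W W' Z : Matrix n n ℂ) : Matrix (n ⊕ n) (n ⊕ n) ℂ :=
  fromBlocks (((1 - γ * ν : ℝ) : ℂ) • X + ((γ * (1 - ν) : ℝ) : ℂ) • Z)
    (((Real.sqrt (1 - γ) : ℝ) : ℂ) • W) (((Real.sqrt (1 - γ) : ℝ) : ℂ) • W')
    (((γ * ν : ℝ) : ℂ) • X + ((1 - γ + γ * ν : ℝ) : ℂ) • Z)

lemma outS_decomp {γ ν : ℝ} (hγ : γ ∈ Icc (0 : ℝ) 1) (hν : ν ∈ Icc (0 : ℝ) 1)
    {X W W' Z : Matrix n n ℂ} (h : (fromBlocks X W W' Z).PosSemidef) {β : ℝ} (hβ : 0 ≤ β)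
    (hβ2 : (1 - γ * ν) * β = 1 - γ) :
    ∃ A B : Matrix n (n ⊕ n) ℂ, A * Aᴴ = ((1 - γ * ν : ℝ) : ℂ) • X ∧ B * Bᴴ = (β : ℂ) • Z ∧
      outS γ ν X W W' Z = fromRows A B * (fromRows A B)ᴴ
        + fromBlocks (((γ * (1 - ν) : ℝ) : ℂ) • Z) 0 0
          (((γ * ν : ℝ) : ℂ) • X + ((1 - γ + γ * ν - β : ℝ) : ℂ) • Z) := by
  have ha : 0 ≤ 1 - γ * ν := by
    have h1 : γ * ν ≤ γ := mul_le_of_le_one_right hγ.1 hν.2
    linarith [hγ.2]
  set G := rt (fromBlocks X W W' Z) with hG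
  have h1 : fromBlocks (G.toRows₁ * G.toRows₁ᴴ) (G.toRows₁ * G.toRows₂ᴴ) (G.toRows₂ * G.toRows₁ᴴ)
      (G.toRows₂ * G.toRows₂ᴴ) = fromBlocks X W W' Z := by
    rw [← fromRows_mul_fromCols, ← conjTranspose_fromRows_eq_fromCols_conjTranspose,
      fromRows_toRows, rt_mul_star h]
  obtain ⟨e1, e2, e3, e4⟩ := fromBlocks_inj.mp h1
  have s1 : ((Real.sqrt (1 - γ * ν) : ℝ) : ℂ) * ((Real.sqrt (1 - γ * ν) : ℝ) : ℂ)
      = ((1 - γ * ν : ℝ) : ℂ) := by rw [← Complex.ofReal_mul, Real.mul_self_sqrt ha]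
  have s2 : ((Real.sqrt β : ℝ) : ℂ) * ((Real.sqrt β : ℝ) : ℂ) = (β : ℂ) := by
    rw [← Complex.ofReal_mul, Real.mul_self_sqrt hβ]
  have s3 : ((Real.sqrt (1 - γ * ν) : ℝ) : ℂ) * ((Real.sqrt β : ℝ) : ℂ)
      = ((Real.sqrt (1 - γ) : ℝ) : ℂ) := by
    rw [← Complex.ofReal_mul, ← Real.sqrt_mul ha, hβ2]
  refine ⟨((Real.sqrt (1 - γ * ν) : ℝ) : ℂ) • G.toRows₁, ((Real.sqrt β : ℝ) : ℂ) • G.toRows₂,
    ?_, ?_, ?_⟩
  · simp only [conjTranspose_smul, Matrix.smul_mul, Matrix.mul_smul, smul_smul, Complex.star_def,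
      Complex.conj_ofReal, s1, e1]
  · simp only [conjTranspose_smul, Matrix.smul_mul, Matrix.mul_smul, smul_smul, Complex.star_def,
      Complex.conj_ofReal, s2, e4]
  · rw [conjTranspose_fromRows_eq_fromCols_conjTranspose, fromRows_mul_fromCols, fromBlocks_add]
    simp only [conjTranspose_smul, Matrix.smul_mul, Matrix.mul_smul, smul_smul, Complex.star_def,
      Complex.conj_ofReal, s1, s2, s3, mul_comm ((Real.sqrt β : ℝ) : ℂ), e1, e2, e3, e4, add_zero]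
    unfold outS
    congr 1
    push_cast
    module

lemma psd_diag {U V : Matrix n n ℂ} (hU : U.PosSemidef) (hV : V.PosSemidef) :
    (fromBlocks U 0 0 V).PosSemidef := by
  rw [← rt_mul_star hU, ← rt_mul_star hV]
  have := posSemidef_self_mul_conjTranspose (fromBlocks (rt U) 0 0 (rt V))
  rw [fromBlocks_conjTranspose, fromBlocks_multiply] at this
  simpa using this

lemma outS_psd {γ ν : ℝ} (hγ : γ ∈ Icc (0 : ℝ) 1) (hν : ν ∈ Icc (0 : ℝ) 1)
    {X W W' Z : Matrix n n ℂ} (h : (fromBlocks X W W' Z).PosSemidef) :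
    (outS γ ν X W W' Z).PosSemidef := by
  obtain ⟨β, hβ, hβ1, hβ2⟩ := exists_split hγ hν
  obtain ⟨A, B, -, -, e⟩ := outS_decomp hγ hν h hβ hβ2
  have hX := psd_block₁₁ h
  have hZ := psd_block₂₂ h
  rw [e]
  exact (posSemidef_self_mul_conjTranspose _).add (psd_diag
    (psd_smul hZ (mul_nonneg hγ.1 (by linarith [hν.2])))
    ((psd_smul hX (mul_nonneg hγ.1 hν.1)).add (psd_smul hZ (by linarith))))

/-- main lower bound on the output entropy -/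
theorem MI {γ ν : ℝ} (hγ : γ ∈ Icc (0 : ℝ) 1) (hν : ν ∈ Icc (0 : ℝ) 1)
    {X W W' Z : Matrix n n ℂ} (h : (fromBlocks X W W' Z).PosSemidef) (h1 : tr X + tr Z = 1) :
    sig X + sig Z + ff γ ν (tr Z) ≤ Sn (outS γ ν X W W' Z) := by
  obtain ⟨β, hβ, hβ1, hβ2⟩ := exists_split hγ hν
  obtain ⟨A, B, eA, eB, e⟩ := outS_decomp hγ hν h hβ hβ2
  have hX := psd_block₁₁ h
  have hZ := psd_block₂₂ h
  have hb : 0 ≤ γ * (1 - ν) := mul_nonneg hγ.1 (by linarith [hν.2])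
  have ha' : 0 ≤ γ * ν := mul_nonneg hγ.1 hν.1
  have hb' : 0 ≤ 1 - γ + γ * ν - β := by linarith
  have hK := KL A B (psd_smul hZ hb) ((psd_smul hX ha').add (psd_smul hZ hb')) rfl rfl rfl rfl
  rw [← e] at hK
  have t1 := sig_smul hX.1 (1 - γ * ν)
  have t2 := sig_smul hZ.1 β
  have t3 := sig_smul hZ.1 (γ * (1 - ν))
  have t4 := sig_comb hX hZ ha' hb'
  rw [eA, eB] at hK
  have hP : Phi (tr (((1 - γ * ν : ℝ) : ℂ) • X) + tr ((β : ℂ) • Z) + tr (((γ * (1 - ν) : ℝ) : ℂ) • Z)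
      + tr (((γ * ν : ℝ) : ℂ) • X + ((1 - γ + γ * ν - β : ℝ) : ℂ) • Z))
      (tr (((1 - γ * ν : ℝ) : ℂ) • X) * tr (((γ * ν : ℝ) : ℂ) • X + ((1 - γ + γ * ν - β : ℝ) : ℂ) • Z)
        + tr (((γ * (1 - ν) : ℝ) : ℂ) • Z) * tr ((β : ℂ) • Z)
        + tr (((γ * (1 - ν) : ℝ) : ℂ) • Z)
          * tr (((γ * ν : ℝ) : ℂ) • X + ((1 - γ + γ * ν - β : ℝ) : ℂ) • Z)) = ff γ ν (tr Z) := by
    unfold ff
    rw [← Phi_one]
    simp only [tr_add, tr_smul]
    have hx : tr X = 1 - tr Z := by linarith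
    rw [hx]
    congr 1
    · ring
    · unfold vv
      linear_combination (-(1 - tr Z) * tr Z) * hβ2
  rw [hP] at hK
  unfold sig at *
  linarith

/-- upper bound on the output entropy -/
theorem UI {γ ν : ℝ} (hγ : γ ∈ Icc (0 : ℝ) 1) (hν : ν ∈ Icc (0 : ℝ) 1)
    {X W W' Z : Matrix n n ℂ} (h : (fromBlocks X W W' Z).PosSemidef) (h1 : tr X + tr Z = 1) :
    Sn (outS γ ν X W W' Z) ≤ Sn (X + Z) + Real.binEntropy ((1 - γ) * tr Z + γ * ν) := by
  have h2 := outS_psd hγ hν h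
  unfold outS at h2 ⊢
  have h3 := Sn_pinch h2
  have h4 := sig_concave (psd_block₁₁ h2) (psd_block₂₂ h2)
  have e : ((1 - γ * ν : ℝ) : ℂ) • X + ((γ * (1 - ν) : ℝ) : ℂ) • Z
      + (((γ * ν : ℝ) : ℂ) • X + ((1 - γ + γ * ν : ℝ) : ℂ) • Z) = X + Z := by
    push_cast; module
  rw [e] at h4
  unfold sig at h4
  rw [tr_add X, h1, Real.negMulLog_one] at h4
  simp only [tr_add, tr_smul] at h4
  have hx : tr X = 1 - tr Z := by linarith
  rw [hx] at h4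
  rw [Real.binEntropy_eq_negMulLog_add_negMulLog_one_sub]
  have e1 : (1 - γ * ν) * (1 - tr Z) + γ * (1 - ν) * tr Z = 1 - ((1 - γ) * tr Z + γ * ν) := by ring
  have e2 : γ * ν * (1 - tr Z) + (1 - γ + γ * ν) * tr Z = (1 - γ) * tr Z + γ * ν := by ring
  rw [e1, e2] at h4
  linarith

end Crest.Agent.QEnt
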