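import Mathlib
import Crest.Agent.QEnt.MI
import Crest.Prelude.Def_QChannel
import Crest.Prelude.Def_AmpDamp

/-! Holevo information of the generalized amplitude-damping channel tensored with a channel. -/

set_option linter.unusedSectionVars false

namespace Crest.Agent.QEnt

open Matrix Set Crest.Quantum Crest.MathPhysics.AmpDamp
open scoped ComplexOrder Kronecker

variable {d e ι : Type} [Fintype d] [DecidableEq d] [Fintype e] [DecidableEq e] [Fintype ι]

/-- channels, with complete positivity over arbitrary finite auxiliary index types -/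
structure Good (Ψ : Matrix d d ℂ → Matrix e e ℂ) : Prop where
  lin : IsLinearMap ℂ Ψ
  tp : IsTracePreserving Ψ
  cp : ∀ (k : Type) [Fintype k] (M : Matrix (k × d) (k × d) ℂ), M.PosSemidef →
    (blockwise Ψ M).PosSemidef

lemma good_of_channel {Ψ : Matrix d d ℂ → Matrix e e ℂ} (h : IsChannel Ψ) : Good Ψ := by
  refine ⟨h.1, h.2.2, fun k _ M hM => ?_⟩
  classical
  let f := Fintype.equivFin k
  have h1 := h.2.1 _ _ (hM.submatrix (Prod.map f.symm id))
  refine psd_of_eq (h1.submatrix (Prod.map f id)) ?_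
  ext p q
  simp [blockwise, block]

lemma Good.psd {Ψ : Matrix d d ℂ → Matrix e e ℂ} (h : Good Ψ) {M : Matrix d d ℂ}
    (hM : M.PosSemidef) : (Ψ M).PosSemidef := by
  have h1 := h.cp Unit _ (hM.submatrix Prod.snd)
  exact psd_of_eq (h1.submatrix fun i => ((), i)) rfl

lemma Good.tr_eq {Ψ : Matrix d d ℂ → Matrix e e ℂ} (h : Good Ψ) (M : Matrix d d ℂ) :
    tr (Ψ M) = tr M := by unfold tr; rw [h.tp M]

lemma psd_block {k : Type} [Fintype k] {M : Matrix (k × d) (k × d) ℂ} (hM : M.PosSemidef) (s : k) :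
    (block M s s).PosSemidef := hM.submatrix fun i => (s, i)

lemma trace_block (M : Matrix (Bool × d) (Bool × d) ℂ) :
    M.trace = (block M false false).trace + (block M true true).trace := by
  simp [trace, block, Fintype.sum_prod_type, add_comm]

lemma tr_block (M : Matrix (Bool × d) (Bool × d) ℂ) :
    tr M = tr (block M false false) + tr (block M true true) := by
  unfold tr; rw [trace_block]; simp

lemma tr_dens {ρ : Matrix d d ℂ} (h : IsDensity ρ) : tr ρ = 1 := by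
  unfold tr; rw [h.2]; simp

/-- `gad ⊗ id` -/
noncomputable def GI (γ ν : ℝ) (T : Matrix (Bool × e) (Bool × e) ℂ) :
    Matrix (Bool × e) (Bool × e) ℂ := qubitTensor (gadMap γ ν) (fun M => M) T

lemma tensor_eq (γ ν : ℝ) (Ψ : Matrix d d ℂ → Matrix e e ℂ) (ρ : Matrix (Bool × d) (Bool × d) ℂ) :
    qubitTensor (gadMap γ ν) Ψ ρ = GI γ ν (blockwise Ψ ρ) := rfl

lemma to_blocks (T : Matrix (Bool × e) (Bool × e) ℂ) :
    T.submatrix (Equiv.boolProdEquivSum e).symm (Equiv.boolProdEquivSum e).symm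
      = fromBlocks (block T false false) (block T false true) (block T true false)
        (block T true true) := by
  ext (i | i) (j | j) <;> rfl

lemma GI_blocks (γ ν : ℝ) (T : Matrix (Bool × e) (Bool × e) ℂ) :
    (GI γ ν T).submatrix (Equiv.boolProdEquivSum e).symm (Equiv.boolProdEquivSum e).symm
      = outS γ ν (block T false false) (block T false true) (block T true false)
        (block T true true) := by
  ext (i | i) (j | j) <;>
    simp [GI, qubitTensor, qubitCoeff, gadMap, outS, block, add_comm]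

lemma GI_psd {γ ν : ℝ} (hγ : γ ∈ Icc (0 : ℝ) 1) (hν : ν ∈ Icc (0 : ℝ) 1)
    {T : Matrix (Bool × e) (Bool × e) ℂ} (hT : T.PosSemidef) : (GI γ ν T).PosSemidef := by
  have h1 := hT.submatrix (Equiv.boolProdEquivSum e).symm
  rw [to_blocks] at h1
  have h2 := outS_psd hγ hν h1
  rw [← GI_blocks] at h2
  exact (posSemidef_submatrix_equiv _).mp h2

lemma GI_lower {γ ν : ℝ} (hγ : γ ∈ Icc (0 : ℝ) 1) (hν : ν ∈ Icc (0 : ℝ) 1)
    {T : Matrix (Bool × e) (Bool × e) ℂ} (hT : T.PosSemidef) (h : tr T = 1) :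
    sig (block T false false) + sig (block T true true) + ff γ ν (tr (block T true true))
      ≤ Sn (GI γ ν T) := by
  have h1 := hT.submatrix (Equiv.boolProdEquivSum e).symm
  rw [to_blocks] at h1
  have h2 := MI hγ hν h1 (by rw [← tr_block, h])
  rwa [← GI_blocks, Sn_submatrix] at h2

lemma GI_upper {γ ν : ℝ} (hγ : γ ∈ Icc (0 : ℝ) 1) (hν : ν ∈ Icc (0 : ℝ) 1)
    {T : Matrix (Bool × e) (Bool × e) ℂ} (hT : T.PosSemidef) (h : tr T = 1) :
    Sn (GI γ ν T) ≤ Sn (block T false false + block T true true)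
      + Real.binEntropy ((1 - γ) * tr (block T true true) + γ * ν) := by
  have h1 := hT.submatrix (Equiv.boolProdEquivSum e).symm
  rw [to_blocks] at h1
  have h2 := UI hγ hν h1 (by rw [← tr_block, h])
  rwa [← GI_blocks, Sn_submatrix] at h2

lemma GI_lin (γ ν : ℝ) : IsLinearMap ℂ (GI (e := e) γ ν) := by
  constructor
  · intro A B; ext p q
    simp [GI, qubitTensor, block, mul_add]; ring
  · intro c A; ext p q
    simp [GI, qubitTensor, block]; ring

lemma GI_tp (γ ν : ℝ) (T : Matrix (Bool × e) (Bool × e) ℂ) : (GI γ ν T).trace = T.trace := by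
  simp only [trace, Fintype.sum_prod_type, Fintype.sum_bool, diag, ← Finset.sum_add_distrib]
  refine Finset.sum_congr rfl fun i _ => ?_
  simp [GI, qubitTensor, qubitCoeff, gadMap, block]; ring

lemma block_blockwise {k : Type} (Ψ : Matrix d d ℂ → Matrix e e ℂ) (M : Matrix (k × d) (k × d) ℂ)
    (s t : k) : block (blockwise Ψ M) s t = Ψ (block M s t) := rfl

lemma blockwise_lin {k : Type} {Ψ : Matrix d d ℂ → Matrix e e ℂ} (h : IsLinearMap ℂ Ψ) :
    IsLinearMap ℂ (blockwise (k := k) Ψ) := by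
  constructor
  · intro A B; ext p q
    have : block (A + B) p.1 q.1 = block A p.1 q.1 + block B p.1 q.1 := rfl
    simp [blockwise, this, h.map_add]
  · intro c A; ext p q
    have : block (c • A) p.1 q.1 = c • block A p.1 q.1 := rfl
    simp [blockwise, this, h.map_smul]

lemma good_tensor {γ ν : ℝ} (hγ : γ ∈ Icc (0 : ℝ) 1) (hν : ν ∈ Icc (0 : ℝ) 1)
    {Ψ : Matrix d d ℂ → Matrix e e ℂ} (h : Good Ψ) : Good (qubitTensor (gadMap γ ν) Ψ) := by
  refine ⟨⟨fun A B => ?_, fun c A => ?_⟩, fun M => ?_, fun k _ M hM => ?_⟩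
  · rw [tensor_eq, tensor_eq, tensor_eq, (blockwise_lin h.lin).map_add, (GI_lin γ ν).map_add]
  · rw [tensor_eq, tensor_eq, (blockwise_lin h.lin).map_smul, (GI_lin γ ν).map_smul]
  · rw [tensor_eq, GI_tp, trace_block, trace_block M, block_blockwise, block_blockwise, h.tp, h.tp]
  · classical
    have h1 := h.cp (k × Bool) _ (hM.submatrix fun p : (k × Bool) × d => (p.1.1, p.1.2, p.2))
    have h2 := GI_psd hγ hν (h1.submatrix fun p : Bool × k × e => ((p.2.1, p.1), p.2.2))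
    exact psd_of_eq (h2.submatrix fun p : k × Bool × e => (p.2.1, p.1, p.2.2)) rfl

/-- ensembles indexed by an arbitrary finite type -/
def Ens (q : ι → ℝ) (ρ : ι → Matrix d d ℂ) : Prop :=
  (∀ a, 0 ≤ q a) ∧ ∑ a, q a = 1 ∧ ∀ a, IsDensity (ρ a)

/-- Holevo information -/
noncomputable def hol (Φ : Matrix d d ℂ → Matrix e e ℂ) (q : ι → ℝ) (ρ : ι → Matrix d d ℂ) : ℝ :=
  Sn (∑ a, (q a : ℂ) • Φ (ρ a)) - ∑ a, q a * Sn (Φ (ρ a))

lemma hol_eq {m : ℕ} (Φ : Matrix d d ℂ → Matrix e e ℂ) (q : Fin m → ℝ)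
    (ρ : Fin m → Matrix d d ℂ) : holevoInfo Φ q ρ = hol Φ q ρ := by
  simp only [holevoInfo, hol, vn_eq]

lemma to_fin {q : ι → ℝ} {ρ : ι → Matrix d d ℂ} (h : Ens q ρ) :
    ∃ (m : ℕ) (q' : Fin m → ℝ) (ρ' : Fin m → Matrix d d ℂ), IsEnsemble q' ρ' ∧
      ∀ Φ : Matrix d d ℂ → Matrix e e ℂ, holevoInfo Φ q' ρ' = hol Φ q ρ := by
  let f := (Fintype.equivFin ι).symm
  refine ⟨_, fun a => q (f a), fun a => ρ (f a), ⟨fun a => h.1 _, ?_, fun a => h.2.2 _⟩, fun Φ => ?_⟩
  · rw [f.sum_comp q, h.2.1]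
  · rw [hol_eq, hol, hol, f.sum_comp fun a => (q a : ℂ) • Φ (ρ a),
      f.sum_comp fun a => q a * Sn (Φ (ρ a))]

lemma exists_normal [Nonempty d] {M : Matrix d d ℂ} (h : M.PosSemidef) :
    ∃ ρ : Matrix d d ℂ, IsDensity ρ ∧ M = ((tr M : ℝ) : ℂ) • ρ := by
  have e : ((tr M : ℝ) : ℂ) = M.trace := by
    have := Complex.nonneg_iff.mp h.trace_nonneg
    apply Complex.ext <;> simp [tr, this.2]
  by_cases h0 : M.trace = 0
  · refine ⟨(((Fintype.card d : ℝ)⁻¹ : ℝ) : ℂ) • 1, ⟨psd_smul PosSemidef.one (by positivity), ?_⟩, ?_⟩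
    · simp
    · rw [e, h0, zero_smul]; exact h.trace_eq_zero_iff.mp h0
  · have h1 : tr M ≠ 0 := fun h2 => h0 (by rw [← e, h2]; simp)
    refine ⟨(((tr M)⁻¹ : ℝ) : ℂ) • M, ⟨psd_smul h (inv_nonneg.mpr (tr_nonneg h)), ?_⟩, ?_⟩
    · rw [trace_smul, ← e, smul_eq_mul, ← Complex.ofReal_mul, inv_mul_cancel₀ h1]; simp
    · rw [smul_smul, ← Complex.ofReal_mul, mul_inv_cancel₀ h1]; simp

lemma sig_normal {Ψ : Matrix d d ℂ → Matrix e e ℂ} (h : Good Ψ) {ρ : Matrix d d ℂ}
    (hρ : IsDensity ρ) (c : ℝ) : sig (Ψ ((c : ℂ) • ρ)) = c * Sn (Ψ ρ) := by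
  rw [h.lin.map_smul, sig_smul (h.psd hρ.1).1, sig, h.tr_eq, tr_dens hρ]; simp

lemma rate_eq (γ ν p : ℝ) : gadRate γ ν p = Real.binEntropy ((1 - γ) * p + γ * ν) - ff γ ν p := rfl

lemma tr_sum (q : ι → ℝ) (A : ι → Matrix d d ℂ) :
    tr (∑ a, (q a : ℂ) • A a) = ∑ a, q a * tr (A a) := by
  simp [tr, trace_sum, trace_smul]

lemma psd_sum {q : ι → ℝ} (hq : ∀ a, 0 ≤ q a) {A : ι → Matrix d d ℂ} (h : ∀ a, (A a).PosSemidef) :
    (∑ a, (q a : ℂ) • A a).PosSemidef :=
  Finset.sum_induction _ _ (fun _ _ => PosSemidef.add) PosSemidef.zero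
    fun a _ => psd_smul (h a) (hq a)

/-- upper bound for the Holevo information of the product channel -/
theorem chi_upper [Nonempty d] {γ ν : ℝ} (hγ : γ ∈ Icc (0 : ℝ) 1) (hν : ν ∈ Icc (0 : ℝ) 1)
    {Ψ : Matrix d d ℂ → Matrix e e ℂ} (h : Good Ψ) {q : ι → ℝ}
    {ρ : ι → Matrix (Bool × d) (Bool × d) ℂ} (hE : Ens q ρ) :
    ∃ p ∈ Icc (0 : ℝ) 1, ∃ (q' : ι × Bool → ℝ) (ρ' : ι × Bool → Matrix d d ℂ), Ens q' ρ' ∧
      hol (qubitTensor (gadMap γ ν) Ψ) q ρ ≤ gadRate γ ν p + hol Ψ q' ρ' := by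
  choose N hN hN2 using fun p : ι × Bool => exists_normal (psd_block (hE.2.2 p.1).1 p.2)
  let w : ι → Bool → ℝ := fun a s => tr (block (ρ a) s s)
  have hw0 : ∀ a s, 0 ≤ w a s := fun a s => tr_nonneg (psd_block (hE.2.2 a).1 s)
  have hw1 : ∀ a, w a false + w a true = 1 := fun a => by
    rw [← tr_dens (hE.2.2 a), tr_block]
  have hwI : ∀ a, w a true ∈ Icc (0 : ℝ) 1 := fun a => ⟨hw0 a _, by linarith [hw1 a, hw0 a false]⟩
  have hN3 : ∀ a s, block (ρ a) s s = ((w a s : ℝ) : ℂ) • N (a, s) := fun a s => hN2 (a, s)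
  have hT : ∀ a, (blockwise Ψ (ρ a)).PosSemidef := fun a => h.cp _ _ (hE.2.2 a).1
  have hT1 : ∀ a, tr (blockwise Ψ (ρ a)) = 1 := fun a => by
    rw [tr_block, block_blockwise, block_blockwise, h.tr_eq, h.tr_eq]; exact hw1 a
  refine ⟨∑ a, q a * w a true, ?_, fun p => q p.1 * w p.1 p.2, N, ⟨?_, ?_, hN⟩, ?_⟩
  · exact (convex_Icc 0 1).sum_mem (fun a _ => hE.1 a) hE.2.1 fun a _ => hwI a
  · exact fun p => mul_nonneg (hE.1 _) (hw0 _ _)
  · rw [Fintype.sum_prod_type, ← hE.2.1]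
    refine Finset.sum_congr rfl fun a _ => ?_
    rw [Fintype.sum_bool]; linear_combination q a * hw1 a
  · have e1 : ∑ a, (q a : ℂ) • qubitTensor (gadMap γ ν) Ψ (ρ a)
        = GI γ ν (∑ a, (q a : ℂ) • blockwise Ψ (ρ a)) := by
      rw [show GI γ ν = ⇑((GI_lin (e := e) γ ν).mk' _) from rfl, map_sum]
      simp only [map_smul]; rfl
    have hb : ∀ s, block (∑ a, (q a : ℂ) • blockwise Ψ (ρ a)) s s
        = ∑ a, (q a : ℂ) • Ψ (block (ρ a) s s) := by
      intro s; ext i j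
      simp [block, blockwise, Matrix.sum_apply]
    have h1 := GI_upper hγ hν (psd_sum hE.1 hT) (by
      rw [tr_sum]; simp only [hT1, mul_one]; exact hE.2.1)
    rw [hb, hb, tr_sum] at h1
    simp only [h.tr_eq] at h1
    have e2 : ∑ a, (q a : ℂ) • Ψ (block (ρ a) false false) + ∑ a, (q a : ℂ) • Ψ (block (ρ a) true true)
        = ∑ p : ι × Bool, ((q p.1 * w p.1 p.2 : ℝ) : ℂ) • Ψ (N p) := by
      rw [Fintype.sum_prod_type, ← Finset.sum_add_distrib]
      refine Finset.sum_congr rfl fun a _ => ?_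
      rw [Fintype.sum_bool, hN3, hN3, h.lin.map_smul, h.lin.map_smul, smul_smul, smul_smul,
        add_comm]
      push_cast; rfl
    have h2 : ∀ a, w a false * Sn (Ψ (N (a, false))) + w a true * Sn (Ψ (N (a, true)))
        + ff γ ν (w a true) ≤ Sn (qubitTensor (gadMap γ ν) Ψ (ρ a)) := by
      intro a
      have := GI_lower hγ hν (hT a) (hT1 a)
      rw [block_blockwise, block_blockwise, h.tr_eq] at this
      rw [← sig_normal h (hN _), ← sig_normal h (hN _), ← hN3, ← hN3]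
      exact this
    have h3 := (ff_convex hγ hν).map_sum_le (t := Finset.univ) (fun a _ => hE.1 a) hE.2.1
      fun a _ => hwI a
    simp only [smul_eq_mul] at h3
    have h4 : ∑ p : ι × Bool, q p.1 * w p.1 p.2 * Sn (Ψ (N p)) + ∑ a, q a * ff γ ν (w a true)
        ≤ ∑ a, q a * Sn (qubitTensor (gadMap γ ν) Ψ (ρ a)) := by
      rw [Fintype.sum_prod_type, ← Finset.sum_add_distrib]
      refine Finset.sum_le_sum fun a _ => ?_
      have := mul_le_mul_of_nonneg_left (h2 a) (hE.1 a)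
      rw [Fintype.sum_bool]
      linarith
    unfold hol
    rw [e1, rate_eq, ← e2]
    linarith

end Crest.Agent.QEnt
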