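import Mathlib
import Crest.Agent.QEnt.Hol

/-! Product ensembles, the single-qubit rate, and minimal output entropy. -/

set_option linter.unusedSectionVars false

namespace Crest.Agent.QEnt

open Matrix Set Crest.Quantum Crest.MathPhysics.AmpDamp
open scoped ComplexOrder Kronecker

variable {d e ι κ : Type} [Fintype d] [DecidableEq d] [Fintype e] [DecidableEq e] [Fintype ι]
  [Fintype κ]

lemma gad_eq (γ ν : ℝ) (A : Matrix Bool Bool ℂ) :
    gadMap γ ν A = (GI γ ν (A.submatrix (Prod.fst : Bool × Unit → Bool) Prod.fst)).submatrix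
      (fun s => (s, ())) fun s => (s, ()) := by
  ext (_ | _) (_ | _) <;> simp [GI, qubitTensor, qubitCoeff, gadMap, block, add_comm]

lemma gad_psd {γ ν : ℝ} (hγ : γ ∈ Icc (0 : ℝ) 1) (hν : ν ∈ Icc (0 : ℝ) 1) {A : Matrix Bool Bool ℂ}
    (h : A.PosSemidef) : (gadMap γ ν A).PosSemidef := by
  rw [gad_eq]; exact (GI_psd hγ hν (h.submatrix _)).submatrix _

lemma gad_tr (γ ν : ℝ) (A : Matrix Bool Bool ℂ) : tr (gadMap γ ν A) = tr A := by
  unfold tr; congr 1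
  simp [trace, gadMap]; ring

lemma tensor_kron (γ ν : ℝ) {Ψ : Matrix d d ℂ → Matrix e e ℂ} (h : IsLinearMap ℂ Ψ)
    (A : Matrix Bool Bool ℂ) (B : Matrix d d ℂ) :
    qubitTensor (gadMap γ ν) Ψ (A ⊗ₖ B) = gadMap γ ν A ⊗ₖ Ψ B := by
  have hb : ∀ s t, block (A ⊗ₖ B) s t = A s t • B := fun s t => rfl
  ext ⟨_ | _, i⟩ ⟨_ | _, j⟩ <;>
    simp [qubitTensor, qubitCoeff, gadMap, hb, h.map_smul] <;> ring

lemma dens_kron {A : Matrix Bool Bool ℂ} {B : Matrix d d ℂ} (hA : IsDensity A) (hB : IsDensity B) :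
    IsDensity (A ⊗ₖ B) :=
  ⟨hA.1.kronecker hB.1, by rw [trace_kronecker, hA.2, hB.2, one_mul]⟩

lemma Sn_prod {γ ν : ℝ} (hγ : γ ∈ Icc (0 : ℝ) 1) (hν : ν ∈ Icc (0 : ℝ) 1)
    {Ψ : Matrix d d ℂ → Matrix e e ℂ} (h : Good Ψ) {A : Matrix Bool Bool ℂ} {B : Matrix d d ℂ}
    (hA : IsDensity A) (hB : IsDensity B) :
    Sn (qubitTensor (gadMap γ ν) Ψ (A ⊗ₖ B)) = Sn (gadMap γ ν A) + Sn (Ψ B) := by
  rw [tensor_kron γ ν h.lin, Sn_kron (gad_psd hγ hν hA.1).1 (h.psd hB.1).1, gad_tr, h.tr_eq,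
    tr_dens hA, tr_dens hB, one_mul, one_mul]

theorem hol_prod {γ ν : ℝ} (hγ : γ ∈ Icc (0 : ℝ) 1) (hν : ν ∈ Icc (0 : ℝ) 1)
    {Ψ : Matrix d d ℂ → Matrix e e ℂ} (h : Good Ψ) {q₁ : ι → ℝ} {ρ₁ : ι → Matrix Bool Bool ℂ}
    {q₂ : κ → ℝ} {ρ₂ : κ → Matrix d d ℂ} (h1 : Ens q₁ ρ₁) (h2 : Ens q₂ ρ₂) :
    Ens (fun p : ι × κ => q₁ p.1 * q₂ p.2) (fun p => ρ₁ p.1 ⊗ₖ ρ₂ p.2) ∧
      hol (qubitTensor (gadMap γ ν) Ψ) (fun p : ι × κ => q₁ p.1 * q₂ p.2)
        (fun p => ρ₁ p.1 ⊗ₖ ρ₂ p.2) = hol (gadMap γ ν) q₁ ρ₁ + hol Ψ q₂ ρ₂ := by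
  refine ⟨⟨fun p => mul_nonneg (h1.1 _) (h2.1 _), ?_, fun p => dens_kron (h1.2.2 _) (h2.2.2 _)⟩, ?_⟩
  · rw [Fintype.sum_prod_type]
    simp only [← Finset.mul_sum, h2.2.1, mul_one, h1.2.1]
  · unfold hol
    have e1 : ∑ p : ι × κ, ((q₁ p.1 * q₂ p.2 : ℝ) : ℂ) • qubitTensor (gadMap γ ν) Ψ (ρ₁ p.1 ⊗ₖ ρ₂ p.2)
        = (∑ a, (q₁ a : ℂ) • gadMap γ ν (ρ₁ a)) ⊗ₖ ∑ b, (q₂ b : ℂ) • Ψ (ρ₂ b) := by
      simp only [tensor_kron γ ν h.lin]
      ext p r
      simp only [Matrix.sum_apply, Matrix.smul_apply, kroneckerMap_apply, Fintype.sum_prod_type,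
        Finset.sum_mul_sum, smul_eq_mul]
      refine Finset.sum_congr rfl fun a _ => Finset.sum_congr rfl fun b _ => ?_
      push_cast; ring
    rw [e1, Sn_kron (psd_sum h1.1 fun a => gad_psd hγ hν (h1.2.2 a).1).1
      (psd_sum h2.1 fun a => h.psd (h2.2.2 a).1).1, tr_sum, tr_sum]
    simp only [Sn_prod hγ hν h (h1.2.2 _) (h2.2.2 _), gad_tr, h.tr_eq, tr_dens (h1.2.2 _),
      tr_dens (h2.2.2 _), mul_one, h1.2.1, h2.2.1, one_mul, Fintype.sum_prod_type]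
    have e2 : ∀ a, ∑ b, q₁ a * q₂ b * (Sn (gadMap γ ν (ρ₁ a)) + Sn (Ψ (ρ₂ b)))
        = q₁ a * Sn (gadMap γ ν (ρ₁ a)) + q₁ a * ∑ b, q₂ b * Sn (Ψ (ρ₂ b)) := by
      intro a
      have : q₁ a * Sn (gadMap γ ν (ρ₁ a)) = ∑ b, q₂ b * (q₁ a * Sn (gadMap γ ν (ρ₁ a))) := by
        rw [← Finset.sum_mul, h2.2.1, one_mul]
      rw [this, Finset.mul_sum, ← Finset.sum_add_distrib]
      exact Finset.sum_congr rfl fun b _ => by ring
    simp only [e2, Finset.sum_add_distrib, ← Finset.sum_mul, h1.2.1]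
    ring

lemma Sn_two {A : Matrix Bool Bool ℂ} (h : A.IsHermitian) : Sn A = Phi (tr A) A.det.re := by
  have h1 : tr A = ev A true + ev A false := by rw [tr, ← sum_ev h, Fintype.sum_bool]
  have h2 : A.det.re = ev A true * ev A false := by
    rw [h.det_eq_prod_eigenvalues, ev_eq h, Fintype.prod_bool]; simp
  have h3 : (ev A true + ev A false) ^ 2 - 4 * (ev A true * ev A false)
      = (ev A true - ev A false) ^ 2 := by ring
  rw [h1, h2, Sn, Fintype.sum_bool, Phi, h3, Real.sqrt_sq_eq_abs]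
  rcases le_total (ev A true) (ev A false) with h4 | h4
  · rw [abs_of_nonpos (by linarith), add_comm]; congr 2 <;> ring
  · rw [abs_of_nonneg (by linarith)]; congr 2 <;> ring

lemma det_bool (A : Matrix Bool Bool ℂ) :
    A.det = A false false * A true true - A false true * A true false := by
  rw [← det_submatrix_equiv_self finTwoEquiv, det_fin_two]; rfl

/-- real pure state with population `p` and coherence sign `c` -/
noncomputable def pure2 (p c : ℝ) : Matrix Bool Bool ℂ :=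
  Matrix.of fun s t => if s = false ∧ t = false then ((1 - p : ℝ) : ℂ)
    else if s = true ∧ t = true then (p : ℂ) else ((c * Real.sqrt (p * (1 - p)) : ℝ) : ℂ)

lemma pure2_dens {p c : ℝ} (hp : p ∈ Icc (0 : ℝ) 1) (hc : c * c = 1) : IsDensity (pure2 p c) := by
  constructor
  · let v : Matrix Bool Unit ℂ := Matrix.of fun s _ =>
      if s = false then ((Real.sqrt (1 - p) : ℝ) : ℂ) else ((c * Real.sqrt p : ℝ) : ℂ)
    refine psd_of_eq (posSemidef_self_mul_conjTranspose v) ?_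
    have h1 := Real.mul_self_sqrt hp.1
    have h2 := Real.mul_self_sqrt (sub_nonneg.mpr hp.2)
    have h3 := Real.sqrt_mul hp.1 (1 - p)
    ext (_ | _) (_ | _) <;>
      simp only [pure2, v, mul_apply, conjTranspose_apply, of_apply, Finset.univ_unique,
        Finset.sum_singleton, Complex.star_def, Complex.conj_ofReal, ← Complex.ofReal_mul,
        and_self, if_true, if_false, Bool.false_eq_true, Bool.true_eq_false, and_false, false_and] <;>
      congr 1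
    · exact h2.symm
    · rw [h3]; ring
    · rw [h3]; ring
    · linear_combination -h1 - (Real.sqrt p * Real.sqrt p) * hc
  · simp [trace, pure2]

lemma Sn_pure2 {γ ν : ℝ} (hγ : γ ∈ Icc (0 : ℝ) 1) (hν : ν ∈ Icc (0 : ℝ) 1) {p c : ℝ}
    (hp : p ∈ Icc (0 : ℝ) 1) (hc : c * c = 1) : Sn (gadMap γ ν (pure2 p c)) = ff γ ν p := by
  have hd := pure2_dens hp hc
  rw [Sn_two (gad_psd hγ hν hd.1).1, gad_tr, tr_dens hd, Phi_one, ff, det_bool]
  congr 6
  have h1 := Real.mul_self_sqrt (sub_nonneg.mpr hγ.2)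
  have h2 := Real.mul_self_sqrt (mul_nonneg hp.1 (sub_nonneg.mpr hp.2))
  simp only [gadMap, pure2, of_apply, and_self, if_true, if_false, Bool.false_eq_true,
    Bool.true_eq_false, and_false, false_and, ← Complex.ofReal_mul, ← Complex.ofReal_add,
    ← Complex.ofReal_sub, Complex.ofReal_re, vv]
  linear_combination (-(c * c) * (Real.sqrt (p * (1 - p)) * Real.sqrt (p * (1 - p)))) * h1
    - (1 - γ) * (c * c) * h2 - (1 - γ) * (p * (1 - p)) * hc

theorem rate_achieved {γ ν : ℝ} (hγ : γ ∈ Icc (0 : ℝ) 1) (hν : ν ∈ Icc (0 : ℝ) 1) {p : ℝ}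
    (hp : p ∈ Icc (0 : ℝ) 1) : ∃ (q : Bool → ℝ) (ρ : Bool → Matrix Bool Bool ℂ), Ens q ρ ∧
      hol (gadMap γ ν) q ρ = gadRate γ ν p := by
  have hc : ∀ s : Bool, (if s then (1 : ℝ) else -1) * (if s then (1 : ℝ) else -1) = 1 := by
    intro s; cases s <;> simp
  refine ⟨fun _ => 1 / 2, fun s => pure2 p (if s then 1 else -1),
    ⟨fun _ => by norm_num, by simp, fun s => pure2_dens hp (hc s)⟩, ?_⟩
  unfold hol
  simp only [Sn_pure2 hγ hν hp (hc _)]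
  have e : ∑ s : Bool, ((1 / 2 : ℝ) : ℂ) • gadMap γ ν (pure2 p (if s then 1 else -1))
      = dR fun s => if s then (1 - γ) * p + γ * ν else 1 - ((1 - γ) * p + γ * ν) := by
    ext (_ | _) (_ | _) <;> simp [gadMap, pure2, dR] <;> ring
  rw [e, Sn, sum_ev_dR, rate_eq, Real.binEntropy_eq_negMulLog_add_negMulLog_one_sub]
  simp

theorem smin_lower [Nonempty d] {γ ν : ℝ} (hγ : γ ∈ Icc (0 : ℝ) 1) (hν : ν ∈ Icc (0 : ℝ) 1)
    {Ψ : Matrix d d ℂ → Matrix e e ℂ} (h : Good Ψ) {ρ : Matrix (Bool × d) (Bool × d) ℂ}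
    (hρ : IsDensity ρ) : ∃ (ρ₁ : Matrix Bool Bool ℂ) (ρ₂ : Matrix d d ℂ), IsDensity ρ₁ ∧
      IsDensity ρ₂ ∧ Sn (gadMap γ ν ρ₁) + Sn (Ψ ρ₂) ≤ Sn (qubitTensor (gadMap γ ν) Ψ ρ) := by
  obtain ⟨N0, hN0, e0⟩ := exists_normal (psd_block hρ.1 false)
  obtain ⟨N1, hN1, e1⟩ := exists_normal (psd_block hρ.1 true)
  have hw0 := tr_nonneg (psd_block hρ.1 false)
  have hw1 := tr_nonneg (psd_block hρ.1 true)
  have hw : tr (block ρ false false) + tr (block ρ true true) = 1 := by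
    rw [← tr_block, tr_dens hρ]
  have h1 := GI_lower hγ hν (h.cp _ _ hρ.1) (by
    rw [tr_block, block_blockwise, block_blockwise, h.tr_eq, h.tr_eq, hw])
  rw [block_blockwise, block_blockwise, h.tr_eq, ← tensor_eq] at h1
  have h2 := sig_normal h hN0 (tr (block ρ false false))
  have h3 := sig_normal h hN1 (tr (block ρ true true))
  rw [← e0] at h2
  rw [← e1] at h3
  have hp : tr (block ρ true true) ∈ Icc (0 : ℝ) 1 := ⟨hw1, by linarith⟩
  have h4 := Sn_pure2 hγ hν hp (mul_one (1 : ℝ))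
  rcases le_total (Sn (Ψ N0)) (Sn (Ψ N1)) with h5 | h5
  · refine ⟨_, N0, pure2_dens hp (mul_one (1 : ℝ)), hN0, ?_⟩
    have := mul_le_mul_of_nonneg_left h5 hw1
    have e : Sn (Ψ N0) = (tr (block ρ false false) + tr (block ρ true true)) * Sn (Ψ N0) := by
      rw [hw, one_mul]
    linarith
  · refine ⟨_, N1, pure2_dens hp (mul_one (1 : ℝ)), hN1, ?_⟩
    have := mul_le_mul_of_nonneg_left h5 hw0
    have e : Sn (Ψ N1) = (tr (block ρ false false) + tr (block ρ true true)) * Sn (Ψ N1) := by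
      rw [hw, one_mul]
    linarith

end Crest.Agent.QEnt
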