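import Mathlib
import Crest.Agent.QEnt.Prod

/-! Tensor powers of the generalized amplitude-damping channel. -/

set_option linter.unusedSectionVars false

namespace Crest.Agent.QEnt

open Matrix Set Crest.Quantum Crest.MathPhysics.AmpDamp
open scoped ComplexOrder Kronecker

variable {d e d' e' ι : Type} [Fintype d] [DecidableEq d] [Fintype e] [DecidableEq e]
  [Fintype d'] [DecidableEq d'] [Fintype e'] [DecidableEq e'] [Fintype ι]

lemma trace_sub_equiv (M : Matrix d' d' ℂ) (f : d ≃ d') : (M.submatrix f f).trace = M.trace :=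
  f.sum_comp fun i => M i i

lemma good_reindex {Φ : Matrix d d ℂ → Matrix e e ℂ} {Φ' : Matrix d' d' ℂ → Matrix e' e' ℂ}
    (f : d ≃ d') (g : e' ≃ e) (h : ∀ M, Φ' M = (Φ (M.submatrix f f)).submatrix g g)
    (hΦ : Good Φ) : Good Φ' := by
  refine ⟨⟨fun A B => ?_, fun c A => ?_⟩, fun M => ?_, fun k _ M hM => ?_⟩
  · rw [h, h, h, submatrix_add, Pi.add_apply, Pi.add_apply, hΦ.lin.map_add]; rfl
  · rw [h, h, submatrix_smul, Pi.smul_apply, Pi.smul_apply, hΦ.lin.map_smul]; rfl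
  · rw [h, trace_sub_equiv, hΦ.tp, trace_sub_equiv]
  · classical
    have h1 := hΦ.cp k _ (hM.submatrix (Prod.map id f))
    refine psd_of_eq (h1.submatrix (Prod.map id g)) ?_
    ext p q
    simp only [blockwise, of_apply, h]; rfl

lemma ens_reindex {q : ι → ℝ} {ρ : ι → Matrix d' d' ℂ} (f : d ≃ d') (h : Ens q ρ) :
    Ens q fun a => (ρ a).submatrix f f :=
  ⟨h.1, h.2.1, fun a => ⟨(h.2.2 a).1.submatrix f, by rw [trace_sub_equiv, (h.2.2 a).2]⟩⟩

lemma hol_reindex {Φ : Matrix d d ℂ → Matrix e e ℂ} {Φ' : Matrix d' d' ℂ → Matrix e' e' ℂ}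
    (f : d ≃ d') (g : e' ≃ e) (h : ∀ M, Φ' M = (Φ (M.submatrix f f)).submatrix g g)
    (q : ι → ℝ) (ρ : ι → Matrix d' d' ℂ) :
    hol Φ' q ρ = hol Φ q fun a => (ρ a).submatrix f f := by
  unfold hol
  simp only [h, Sn_submatrix]
  rw [← Sn_submatrix (∑ a, (q a : ℂ) • Φ ((ρ a).submatrix f f)) g]
  congr 2
  ext i j
  simp [Matrix.sum_apply]

/-- splitting off the first qubit -/
def ce (n : ℕ) : Bool × (Fin n → Bool) ≃ (Fin (n + 1) → Bool) := Fin.consEquiv fun _ => Bool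

lemma pow_succ_eq (n : ℕ) (Φ : Matrix Bool Bool ℂ → Matrix Bool Bool ℂ)
    (M : Matrix (Fin (n + 1) → Bool) (Fin (n + 1) → Bool) ℂ) :
    qubitPower (n + 1) Φ M = (qubitTensor Φ (qubitPower n Φ) (M.submatrix (ce n) (ce n))).submatrix
      (ce n).symm (ce n).symm := by
  ext σ τ
  simp only [qubitPower, qubitTensor, block, of_apply, submatrix_apply]
  rw [← (ce n).sum_comp, Fintype.sum_prod_type]
  refine Finset.sum_congr rfl fun s _ => ?_
  simp only [Finset.mul_sum]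
  conv_rhs => rw [Finset.sum_comm]
  refine Finset.sum_congr rfl fun σ' _ => ?_
  rw [← (ce n).sum_comp, Fintype.sum_prod_type]
  refine Finset.sum_congr rfl fun t _ => Finset.sum_congr rfl fun τ' _ => ?_
  rw [Fin.prod_univ_succ, mul_assoc]
  rfl

lemma pow_zero_eq (Φ : Matrix Bool Bool ℂ → Matrix Bool Bool ℂ)
    (M : Matrix (Fin 0 → Bool) (Fin 0 → Bool) ℂ) : qubitPower 0 Φ M = M := by
  ext σ τ
  simp only [qubitPower, of_apply, Finset.univ_unique, Finset.sum_singleton, Finset.univ_eq_empty,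
    Finset.prod_empty, one_mul]
  congr 1 <;> exact Subsingleton.elim _ _

lemma good_pow {γ ν : ℝ} (hγ : γ ∈ Icc (0 : ℝ) 1) (hν : ν ∈ Icc (0 : ℝ) 1) (n : ℕ) :
    Good (qubitPower n (gadMap γ ν)) := by
  induction n with
  | zero =>
    have : qubitPower 0 (gadMap γ ν) = fun M => M := funext (pow_zero_eq _)
    rw [this]
    exact ⟨⟨fun _ _ => rfl, fun _ _ => rfl⟩, fun _ => rfl, fun k _ M hM => hM⟩
  | succ n ih => exact good_reindex _ _ (pow_succ_eq n _) (good_tensor hγ hν ih)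

lemma Sn_unique [Unique d] {A : Matrix d d ℂ} (h : A.IsHermitian) (h1 : tr A = 1) : Sn A = 0 := by
  have := sum_ev h
  rw [Finset.univ_unique, Finset.sum_singleton] at this
  rw [Sn, Finset.univ_unique, Finset.sum_singleton, this]
  exact (congrArg Real.negMulLog h1).trans Real.negMulLog_one

lemma hol_zero (Φ : Matrix Bool Bool ℂ → Matrix Bool Bool ℂ) {q : ι → ℝ}
    {ρ : ι → Matrix (Fin 0 → Bool) (Fin 0 → Bool) ℂ} (h : Ens q ρ) :
    hol (qubitPower 0 Φ) q ρ = 0 := by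
  unfold hol
  simp only [pow_zero_eq]
  rw [Sn_unique (psd_sum h.1 fun a => (h.2.2 a).1).1 (by
    rw [tr_sum]; simp only [tr_dens (h.2.2 _), mul_one, h.2.1])]
  simp [Sn_unique (h.2.2 _).1.1 (tr_dens (h.2.2 _))]

theorem pow_upper {γ ν : ℝ} (hγ : γ ∈ Icc (0 : ℝ) 1) (hν : ν ∈ Icc (0 : ℝ) 1) {R : ℝ}
    (hR : ∀ p ∈ Icc (0 : ℝ) 1, gadRate γ ν p ≤ R) (n : ℕ) :
    ∀ (ι : Type) [Fintype ι] (q : ι → ℝ) (ρ : ι → Matrix (Fin n → Bool) (Fin n → Bool) ℂ),
      Ens q ρ → hol (qubitPower n (gadMap γ ν)) q ρ ≤ n * R := by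
  induction n with
  | zero => intro ι _ q ρ h; rw [hol_zero _ h]; simp
  | succ n ih =>
    intro ι _ q ρ h
    rw [hol_reindex _ _ (pow_succ_eq n _)]
    obtain ⟨p, hp, q', ρ', h1, h2⟩ := chi_upper hγ hν (good_pow hγ hν n) (ens_reindex (ce n) h)
    have h3 := ih _ q' ρ' h1
    have h4 := hR p hp
    push_cast
    linarith

theorem pow_lower {γ ν : ℝ} (hγ : γ ∈ Icc (0 : ℝ) 1) (hν : ν ∈ Icc (0 : ℝ) 1) {p : ℝ}
    (hp : p ∈ Icc (0 : ℝ) 1) (n : ℕ) : ∃ (m : ℕ) (q : Fin m → ℝ)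
      (ρ : Fin m → Matrix (Fin n → Bool) (Fin n → Bool) ℂ), IsEnsemble q ρ ∧
        holevoInfo (qubitPower n (gadMap γ ν)) q ρ = n * gadRate γ ν p := by
  induction n with
  | zero =>
    have h : Ens (fun _ : Fin 1 => (1 : ℝ)) fun _ => (1 : Matrix (Fin 0 → Bool) (Fin 0 → Bool) ℂ) :=
      ⟨fun _ => zero_le_one, by simp, fun _ => ⟨PosSemidef.one, by simp⟩⟩
    exact ⟨1, _, _, h, by rw [hol_eq, hol_zero _ h]; simp⟩
  | succ n ih =>
    obtain ⟨m, q, ρ, h1, h2⟩ := ih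
    obtain ⟨q₁, ρ₁, h3, h4⟩ := rate_achieved hγ hν hp
    obtain ⟨h5, h6⟩ := hol_prod hγ hν (good_pow hγ hν n) h3 (q₂ := q) (ρ₂ := ρ) h1
    obtain ⟨m', q', ρ', h7, h8⟩ := to_fin (e := Fin (n + 1) → Bool) (ens_reindex (ce n).symm h5)
    refine ⟨m', q', ρ', h7, ?_⟩
    rw [h8, hol_reindex _ _ (pow_succ_eq n _)]
    simp only [submatrix_submatrix, Equiv.symm_comp_self, submatrix_id_id]
    rw [h6, h4, ← hol_eq, h2]
    push_cast; ring

lemma rate_max (γ ν : ℝ) : ∃ p ∈ Icc (0 : ℝ) 1, ∀ p' ∈ Icc (0 : ℝ) 1,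
    gadRate γ ν p' ≤ gadRate γ ν p := by
  have hc : Continuous (gadRate γ ν) := by
    unfold gadRate
    exact (Real.binEntropy_continuous.comp (by fun_prop)).sub
      (Real.binEntropy_continuous.comp (by fun_prop))
  obtain ⟨p, hp, h⟩ := isCompact_Icc.exists_isMaxOn (⟨0, by simp⟩ : (Icc (0 : ℝ) 1).Nonempty)
    hc.continuousOn
  exact ⟨p, hp, fun p' hp' => h hp'⟩

end Crest.Agent.QEnt
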